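import Vale.Agent.P199.BaseChange

/-!
# Amitsur's counting argument: `E' ⊗[E] Δ` is algebraic over an uncountable `E`
-/

namespace Vale.Agent.P199

open scoped TensorProduct BigOperators Cardinal
open TensorProduct Polynomial

universe u

section Core

variable {E B : Type u} [Field E] [Uncountable E] [Ring B] [Algebra E B]

/-- The counting argument: in an `E`-algebra of countable dimension over an uncountable field,
if each `x - λ` has a left inverse or a left annihilator, then `x` is algebraic. -/
theorem algebraic_of_rank_le (hrank : Module.rank E B ≤ ℵ₀) (x : B)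
    (h : ∀ μ : E, (∃ y : B, y ≠ 0 ∧ y * (x - algebraMap E B μ) = 0) ∨
      (∃ y : B, y * (x - algebraMap E B μ) = 1)) : IsAlgebraic E x := by
  classical
  -- eigenvalues are countable
  let Λ₁ : Set E := {μ | ∃ y : B, y ≠ 0 ∧ y * (x - algebraMap E B μ) = 0}
  have hΛ₁ : Λ₁.Countable := by
    rw [← Set.countable_coe_iff, ← Cardinal.mk_le_aleph0_iff]
    have hy : ∀ μ : Λ₁, ∃ y : B, y ≠ 0 ∧ y * (x - algebraMap E B μ) = 0 := fun μ => μ.2
    choose y hy0 hy1 using hy
    have hli : LinearIndependent E y := by
      refine Module.End.eigenvectors_linearIndependent' (LinearMap.mulRight E x)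
        (fun μ : Λ₁ => (μ : E)) Subtype.coe_injective y ?_
      intro μ
      refine ⟨?_, hy0 μ⟩
      rw [Module.End.mem_eigenspace_iff]
      have := hy1 μ
      rw [mul_sub, sub_eq_zero] at this
      rw [LinearMap.mulRight_apply, this, Algebra.smul_def, Algebra.commutes]
    exact hli.cardinal_le_rank.trans hrank
  -- the complement is uncountable
  let Λ₂ : Set E := Λ₁ᶜ
  have hΛ₂ : ¬ Λ₂.Countable := by
    intro hc
    have : (Set.univ : Set E).Countable := by
      rw [← Set.union_compl_self Λ₁]
      exact hΛ₁.union hc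
    exact (Set.not_countable_univ) this
  have hy : ∀ μ : Λ₂, ∃ y : B, y * (x - algebraMap E B μ) = 1 := by
    intro μ
    rcases h μ with h1 | h1
    · exact absurd h1 μ.2
    · exact h1
  choose y hy using hy
  have hnli : ¬ LinearIndependent E y := by
    intro hli
    apply hΛ₂
    rw [← Set.countable_coe_iff, ← Cardinal.mk_le_aleph0_iff]
    exact hli.cardinal_le_rank.trans hrank
  rw [not_linearIndependent_iff] at hnli
  obtain ⟨s, g, hsum, i0, hi0, hgi0⟩ := hnli
  -- the polynomial
  let P : Λ₂ → E[X] := fun i => ∏ μ ∈ s.erase i, (X - C (μ : E))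
  let Q : E[X] := ∏ μ ∈ s, (X - C (μ : E))
  have hQ : ∀ i ∈ s, Q = (X - C (i : E)) * P i := fun i hi =>
    (Finset.mul_prod_erase s (fun μ : Λ₂ => (X - C (μ : E))) hi).symm
  let G : E[X] := ∑ i ∈ s, C (g i) * P i
  have hG0 : G ≠ 0 := by
    intro h0
    have h1 := congrArg (Polynomial.eval (i0 : E)) h0
    rw [Polynomial.eval_zero, Polynomial.eval_finset_sum, Finset.sum_eq_single i0] at h1
    · rw [Polynomial.eval_mul, Polynomial.eval_C, Polynomial.eval_prod, mul_eq_zero] at h1
      rcases h1 with h1 | h1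
      · exact hgi0 h1
      · rw [Finset.prod_eq_zero_iff] at h1
        obtain ⟨μ, hμ, hμ0⟩ := h1
        rw [Polynomial.eval_sub, Polynomial.eval_X, Polynomial.eval_C, sub_eq_zero] at hμ0
        exact (Finset.mem_erase.mp hμ).1 (Subtype.ext hμ0.symm)
    · intro j _ hj
      rw [Polynomial.eval_mul, Polynomial.eval_prod, Finset.prod_eq_zero (i := i0), mul_zero]
      · exact Finset.mem_erase.mpr ⟨hj.symm, hi0⟩
      · simp
    · intro hh
      exact absurd hi0 hh
  refine ⟨G, hG0, ?_⟩
  have h2 : ∀ i ∈ s, y i * aeval x Q = aeval x (P i) := by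
    intro i hi
    rw [hQ i hi, map_mul, ← mul_assoc]
    have : aeval x (X - C (i : E)) = x - algebraMap E B i := by simp
    rw [this, hy i, one_mul]
  calc aeval x G = ∑ i ∈ s, g i • aeval x (P i) := by
        simp only [G, map_sum, map_mul, aeval_C, Algebra.smul_def]
    _ = ∑ i ∈ s, g i • (y i * aeval x Q) := by
        refine Finset.sum_congr rfl fun i hi => ?_
        rw [h2 i hi]
    _ = (∑ i ∈ s, g i • y i) * aeval x Q := by
        rw [Finset.sum_mul]
        refine Finset.sum_congr rfl fun i _ => ?_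
        rw [smul_mul_assoc]
    _ = 0 := by rw [hsum, zero_mul]

end Core

section Base

variable {E E' Δ : Type u} [Field E] [Uncountable E] [Field E'] [Algebra E E'] [Module.Finite E E']
  [DivisionRing Δ] [Algebra E Δ]

attribute [local instance] bcModule

/-- Amitsur: over an uncountable field, if `Δ` has countable dimension then `E' ⊗[E] Δ` is
algebraic. -/
theorem amitsur_countable (hΔ : Module.rank E Δ ≤ ℵ₀) (x : E' ⊗[E] Δ) : IsAlgebraic E x := by
  haveI := bc_finite (E := E) (E' := E') (Δ := Δ)
  have hrank : Module.rank E (E' ⊗[E] Δ) ≤ ℵ₀ := by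
    rw [rank_tensorProduct']
    calc _ ≤ ℵ₀ * ℵ₀ := mul_le_mul' (Module.rank_lt_aleph0 E E').le hΔ
      _ = ℵ₀ := Cardinal.aleph0_mul_aleph0
  refine algebraic_of_rank_le hrank x ?_
  intro μ
  by_cases hinj : Function.Injective
      (LinearMap.mulRight Δ (x - algebraMap E (E' ⊗[E] Δ) μ))
  · right
    have hsurj : Function.Surjective
        (LinearMap.mulRight Δ (x - algebraMap E (E' ⊗[E] Δ) μ)) :=
      LinearMap.injective_iff_surjective.mp hinj
    obtain ⟨y, hy⟩ := hsurj 1
    exact ⟨y, hy⟩
  · left
    rw [injective_iff_map_eq_zero] at hinj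
    push_neg at hinj
    obtain ⟨y, hy, hy0⟩ := hinj
    exact ⟨y, hy0, hy⟩

end Base

section InvMem

variable {E Δ : Type*} [Field E] [DivisionRing Δ] [Algebra E Δ]

/-- An algebraic element lies with its inverse in every subalgebra containing it. -/
theorem inv_mem_of_alg (A : Subalgebra E Δ) {x : Δ} (hxA : x ∈ A) (hx : IsAlgebraic E x) :
    x⁻¹ ∈ A := by
  by_cases hx0 : x = 0
  · simp [hx0]
  obtain ⟨p, hp0, hp⟩ := hx
  revert hp0 hp
  refine p.recOnHorner ?_ ?_ ?_
  · intro h
    exact absurd rfl h
  · intro p a hp ha _ _ hev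
    have h3 : p = X * p.divX := by
      have := (Polynomial.divX_mul_X_add p).symm
      rw [hp, map_zero, add_zero, mul_comm] at this
      exact this
    have h2 : x * aeval x p.divX + algebraMap E Δ a = 0 := by
      have h4 : aeval x (p + C a) = 0 := hev
      rw [map_add, h3, map_mul, aeval_X, aeval_C] at h4
      simpa [Polynomial.divX_mul_X_add] using h4
    have ha' : algebraMap E Δ a ≠ 0 := by
      intro h0
      apply ha
      exact (map_eq_zero_iff _ (algebraMap E Δ).injective).mp h0
    have h5 : x * ((-a⁻¹) • aeval x p.divX) = 1 := by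
      rw [mul_smul_comm, eq_neg_of_add_eq_zero_left h2, Algebra.algebraMap_eq_smul_one, ← neg_smul,
        smul_smul]
      simp [ha]
    have h6 : x⁻¹ = (-a⁻¹) • aeval x p.divX := (eq_inv_of_mul_eq_one_right h5).symm
    rw [h6]
    apply A.smul_mem
    have h7 : aeval x p.divX = A.val (aeval (⟨x, hxA⟩ : A) p.divX) := by
      rw [← Polynomial.aeval_algHom_apply]
      rfl
    rw [h7]
    exact (aeval (⟨x, hxA⟩ : A) p.divX).2
  · intro p hp ih _ hev
    rw [map_mul, aeval_X, mul_eq_zero] at hev
    rcases hev with h | h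
    · exact ih hp h
    · exact absurd h hx0

end InvMem

section Full

variable {E E' Δ : Type u} [Field E] [Uncountable E] [Field E'] [Algebra E E'] [Module.Finite E E']
  [DivisionRing Δ] [Algebra E Δ] [Algebra.IsAlgebraic E Δ]

/-- The subalgebra generated by a finite set has countable dimension. -/
theorem rank_adjoin_le {s : Set Δ} (hs : s.Finite) :
    Module.rank E (Algebra.adjoin E s) ≤ ℵ₀ := by
  have hc : (Submonoid.closure s : Set Δ).Countable := by
    haveI : Countable s := hs.countable.to_subtype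
    haveI : Countable (FreeMonoid s) := inferInstanceAs (Countable (List s))
    rw [Submonoid.closure_eq_mrange, MonoidHom.coe_mrange]
    exact Set.countable_range _
  have h2 : (Algebra.adjoin E s).toSubmodule = Submodule.span E (Submonoid.closure s : Set Δ) :=
    Algebra.adjoin_eq_span E s
  have h3 := rank_span_le (R := E) (Submonoid.closure s : Set Δ)
  rw [← h2] at h3
  exact h3.trans (Cardinal.mk_le_aleph0_iff.mpr hc.to_subtype)

attribute [local instance] bcModule

/-- Amitsur: over an uncountable field, if `Δ` is algebraic, so is `E' ⊗[E] Δ`. -/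
theorem amitsur (x : E' ⊗[E] Δ) : IsAlgebraic E x := by
  classical
  let b := Module.finBasis E E'
  let A : Subalgebra E Δ := Algebra.adjoin E (Set.range fun i => coord b i x)
  have hA : Module.rank E A ≤ ℵ₀ := rank_adjoin_le (Set.finite_range _)
  have hunit : ∀ a : A, IsUnit a ∨ a = 0 := by
    intro a
    by_cases ha : a = 0
    · exact Or.inr ha
    · left
      have ha' : (a : Δ) ≠ 0 := fun h => ha (Subtype.ext h)
      have hinv := inv_mem_of_alg A a.2 (Algebra.IsAlgebraic.isAlgebraic (a : Δ))
      refine ⟨⟨a, ⟨(a : Δ)⁻¹, hinv⟩, Subtype.ext (mul_inv_cancel₀ ha'),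
        Subtype.ext (inv_mul_cancel₀ ha')⟩, rfl⟩
  letI : DivisionRing A := DivisionRing.ofIsUnitOrEqZero hunit
  let f : E' ⊗[E] A →ₐ[E] E' ⊗[E] Δ := Algebra.TensorProduct.map (AlgHom.id E E') A.val
  let xt : E' ⊗[E] A := ∑ i, b i ⊗ₜ[E] (⟨coord b i x, Algebra.subset_adjoin ⟨i, rfl⟩⟩ : A)
  have hf : f xt = x := by
    simp only [xt, map_sum, f, Algebra.TensorProduct.map_tmul, AlgHom.id_apply, Subalgebra.val_apply]
    exact sum_coord b x
  have halg : IsAlgebraic E xt := amitsur_countable hA xt
  rw [← hf]
  obtain ⟨p, hp, hp0⟩ := halg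
  exact ⟨p, hp, by rw [Polynomial.aeval_algHom_apply, hp0, map_zero]⟩

end Full

end Vale.Agent.P199
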