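import Vale.Agent.P199.Indep

/-!
# Coordinates in the base change `E' ⊗[E] Δ` of a division algebra
-/

namespace Vale.Agent.P199

open scoped TensorProduct BigOperators
open TensorProduct

universe u

section Coord

variable {E E' Δ : Type u} [Field E] [Field E'] [Algebra E E'] [DivisionRing Δ] [Algebra E Δ]

/-- The inclusion of `Δ` in `E' ⊗[E] Δ`. -/
noncomputable abbrev incR (E E' Δ : Type u) [Field E] [Field E'] [Algebra E E'] [DivisionRing Δ]
    [Algebra E Δ] : Δ →ₐ[E] E' ⊗[E] Δ := Algebra.TensorProduct.includeRight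

variable {ι : Type*} [DecidableEq ι] [Fintype ι] (b : Module.Basis ι E E')

/-- The coordinates of an element of `E' ⊗[E] Δ` with respect to a basis of `E'`. -/
noncomputable def coord (i : ι) : E' ⊗[E] Δ →ₗ[E] Δ :=
  (Finsupp.lapply i) ∘ₗ (TensorProduct.equivFinsuppOfBasisLeft b).toLinearMap

lemma coord_tmul (i : ι) (m : E') (n : Δ) : coord b i (m ⊗ₜ[E] n) = b.repr m i • n := by
  simp [coord, TensorProduct.equivFinsuppOfBasisLeft_apply_tmul_apply]

lemma sum_coord (x : E' ⊗[E] Δ) : ∑ i, b i ⊗ₜ[E] coord b i x = x := by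
  induction x using TensorProduct.induction_on with
  | zero => simp
  | add x y hx hy =>
    simp only [map_add, TensorProduct.tmul_add, Finset.sum_add_distrib, hx, hy]
  | tmul m n =>
    simp only [coord_tmul]
    calc ∑ i, b i ⊗ₜ[E] (b.repr m i • n) = ∑ i, (b.repr m i • b i) ⊗ₜ[E] n := by
          refine Finset.sum_congr rfl fun i _ => ?_
          rw [TensorProduct.tmul_smul, TensorProduct.smul_tmul']
      _ = (∑ i, b.repr m i • b i) ⊗ₜ[E] n := by rw [TensorProduct.sum_tmul]
      _ = m ⊗ₜ[E] n := by rw [b.sum_repr]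

lemma coord_ext {x y : E' ⊗[E] Δ} (h : ∀ i, coord b i x = coord b i y) : x = y := by
  rw [← sum_coord b x, ← sum_coord b y]
  simp only [h]

lemma coord_incR_mul (δ : Δ) (x : E' ⊗[E] Δ) (i : ι) :
    coord b i (incR E E' Δ δ * x) = δ * coord b i x := by
  induction x using TensorProduct.induction_on with
  | zero => simp
  | add x y hx hy => simp only [mul_add, map_add, hx, hy]
  | tmul m n =>
    simp only [incR, Algebra.TensorProduct.includeRight_apply, Algebra.TensorProduct.tmul_mul_tmul,
      one_mul, coord_tmul, mul_smul_comm]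

lemma coord_mul_incR (δ : Δ) (x : E' ⊗[E] Δ) (i : ι) :
    coord b i (x * incR E E' Δ δ) = coord b i x * δ := by
  induction x using TensorProduct.induction_on with
  | zero => simp
  | add x y hx hy => simp only [add_mul, map_add, hx, hy]
  | tmul m n =>
    simp only [incR, Algebra.TensorProduct.includeRight_apply, Algebra.TensorProduct.tmul_mul_tmul,
      mul_one, coord_tmul, smul_mul_assoc]

/-- An element whose coordinates are all scalars has the form `ε ⊗ 1`. -/
lemma eq_tmul_one_of_coord (x : E' ⊗[E] Δ) (e : ι → E)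
    (h : ∀ i, coord b i x = algebraMap E Δ (e i)) : x = (∑ i, e i • b i) ⊗ₜ[E] (1 : Δ) := by
  rw [← sum_coord b x, TensorProduct.sum_tmul]
  refine Finset.sum_congr rfl fun i _ => ?_
  rw [h i, Algebra.algebraMap_eq_smul_one, TensorProduct.tmul_smul, TensorProduct.smul_tmul']

lemma isUnit_tmul_one {ε : E'} (hε : ε ≠ 0) : IsUnit (ε ⊗ₜ[E] (1 : Δ)) := by
  refine ⟨⟨ε ⊗ₜ[E] (1 : Δ), ε⁻¹ ⊗ₜ[E] (1 : Δ), ?_, ?_⟩, rfl⟩
  · rw [Algebra.TensorProduct.tmul_mul_tmul, mul_inv_cancel₀ hε, mul_one]
    rfl
  · rw [Algebra.TensorProduct.tmul_mul_tmul, inv_mul_cancel₀ hε, mul_one]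
    rfl

variable [Algebra.IsCentral E Δ]

lemma central_of_commute {c : Δ} (h : ∀ δ : Δ, δ * c = c * δ) : ∃ e : E, c = algebraMap E Δ e := by
  have : c ∈ Subalgebra.center E Δ := by
    rw [Subalgebra.mem_center_iff]
    exact h
  obtain ⟨e, he⟩ := (Algebra.IsCentral.mem_center_iff E).mp this
  exact ⟨e, he⟩

open Classical in
/-- Key reduction: a nonzero two-sided ideal contains a unit. -/
lemma ideal_eq_top_aux (I : TwoSidedIdeal (E' ⊗[E] Δ)) (n : ℕ) :
    ∀ x ∈ I, x ≠ 0 → (Finset.univ.filter fun i => coord b i x ≠ 0).card = n → I = ⊤ := by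
  induction n using Nat.strong_induction_on with
  | h n ih =>
    intro x hxI hx0 hn
    -- pick a nonzero coordinate
    obtain ⟨i0, hi0⟩ : ∃ i, coord b i x ≠ 0 := by
      by_contra hall
      push_neg at hall
      exact hx0 (coord_ext b (fun i => by rw [hall i, map_zero]))
    set c := coord b i0 x with hc
    set x' := incR E E' Δ c⁻¹ * x with hx'
    have hx'I : x' ∈ I := I.mul_mem_left _ _ hxI
    have hcoord : ∀ i, coord b i x' = c⁻¹ * coord b i x := fun i => coord_incR_mul b _ _ _
    have hx'i0 : coord b i0 x' = 1 := by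
      rw [hcoord, ← hc, inv_mul_cancel₀ hi0]
    have hsupp : ∀ i, coord b i x' ≠ 0 ↔ coord b i x ≠ 0 := by
      intro i
      rw [hcoord]
      simp [hi0]
    -- commutators
    have hcomm : ∀ δ : Δ, incR E E' Δ δ * x' - x' * incR E E' Δ δ = 0 ∨ I = ⊤ := by
      intro δ
      by_cases hy : incR E E' Δ δ * x' - x' * incR E E' Δ δ = 0
      · exact Or.inl hy
      · right
        set y := incR E E' Δ δ * x' - x' * incR E E' Δ δ with hy'
        have hyI : y ∈ I := I.sub_mem (I.mul_mem_left _ _ hx'I) (I.mul_mem_right _ _ hx'I)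
        have hyc : ∀ i, coord b i y = δ * coord b i x' - coord b i x' * δ := by
          intro i
          rw [hy', map_sub, coord_incR_mul, coord_mul_incR]
        have hlt : (Finset.univ.filter fun i => coord b i y ≠ 0).card < n := by
          rw [← hn]
          apply Finset.card_lt_card
          rw [Finset.ssubset_iff_of_subset]
          · refine ⟨i0, by
              simp only [Finset.mem_filter, Finset.mem_univ, true_and]; exact hi0, ?_⟩
            simp [hyc, hx'i0]
          · intro i hi
            simp only [Finset.mem_filter, Finset.mem_univ, true_and] at hi ⊢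
            rw [← hsupp]
            intro h0
            apply hi
            rw [hyc, h0]
            simp
        exact ih _ hlt y hyI hy rfl
    by_cases htop : I = ⊤
    · exact htop
    · have hcomm' : ∀ δ : Δ, ∀ i, δ * coord b i x' = coord b i x' * δ := by
        intro δ i
        have h0 := (hcomm δ).resolve_right htop
        have h1 := congrArg (coord b i) h0
        rw [map_sub, coord_incR_mul, coord_mul_incR, map_zero] at h1
        exact sub_eq_zero.mp h1
      have h2 : ∀ i, ∃ e : E, coord b i x' = algebraMap E Δ e :=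
        fun i => central_of_commute (fun δ => hcomm' δ i)
      choose e he using h2
      have h3 := eq_tmul_one_of_coord b x' e he
      have hε : (∑ i, e i • b i) ≠ 0 := by
        intro h0
        rw [h0, TensorProduct.zero_tmul] at h3
        have := hx'i0
        rw [h3, map_zero] at this
        exact zero_ne_one this
      have hu := isUnit_tmul_one (E := E) (Δ := Δ) hε
      rw [← h3] at hu
      obtain ⟨u, hu⟩ := hu
      apply (I.one_mem_iff).mp
      have := I.mul_mem_left (↑u⁻¹) _ hx'I
      rwa [← hu, Units.inv_mul] at this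

variable (E E' Δ) in
theorem isSimpleRing_bc [Module.Finite E E'] : IsSimpleRing (E' ⊗[E] Δ) := by
  classical
  haveI : Nontrivial (E' ⊗[E] Δ) := by
    have hinj : Function.Injective (Algebra.TensorProduct.includeRight : Δ →ₐ[E] E' ⊗[E] Δ) :=
      Algebra.TensorProduct.includeRight_injective (FaithfulSMul.algebraMap_injective E E')
    exact hinj.nontrivial
  refine IsSimpleRing.of_eq_bot_or_eq_top ?_
  intro I
  by_cases hbot : I = ⊥
  · exact Or.inl hbot
  · right
    obtain ⟨x, hx, hx0⟩ : ∃ x ∈ I, x ≠ 0 := by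
      by_contra hall
      push_neg at hall
      apply hbot
      rw [eq_bot_iff]
      intro x hx
      rw [hall x hx]
      exact (⊥ : TwoSidedIdeal (E' ⊗[E] Δ)).zero_mem
    exact ideal_eq_top_aux (Module.finBasis E E') I _ x hx hx0 rfl

variable (E E' Δ) in
theorem isCentral_bc [Module.Finite E E'] : Algebra.IsCentral E' (E' ⊗[E] Δ) := by
  classical
  constructor
  intro z hz
  rw [Subalgebra.mem_center_iff] at hz
  set b := Module.finBasis E E' with hb
  have h2 : ∀ i, ∃ e : E, coord b i z = algebraMap E Δ e := by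
    intro i
    apply central_of_commute
    intro δ
    have h1 := hz (incR E E' Δ δ)
    have h3 := congrArg (coord b i) h1
    rwa [coord_incR_mul, coord_mul_incR] at h3
  choose e he using h2
  have h3 := eq_tmul_one_of_coord b z e he
  rw [Algebra.mem_bot]
  refine ⟨∑ i, e i • b i, ?_⟩
  rw [h3]
  rfl

end Coord

section ModuleStructure

variable {E E' Δ : Type u} [Field E] [Field E'] [Algebra E E'] [DivisionRing Δ] [Algebra E Δ]

/-- The left `Δ`-module structure on `E' ⊗[E] Δ`. -/
@[reducible] noncomputable def bcModule (E E' Δ : Type u) [Field E] [Field E'] [Algebra E E']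
    [DivisionRing Δ] [Algebra E Δ] : Module Δ (E' ⊗[E] Δ) :=
  Module.compHom _ (incR E E' Δ).toRingHom

attribute [local instance] bcModule

lemma bc_smul_def (δ : Δ) (x : E' ⊗[E] Δ) : δ • x = incR E E' Δ δ * x := rfl

instance bc_tower : IsScalarTower Δ (E' ⊗[E] Δ) (E' ⊗[E] Δ) where
  smul_assoc δ x y := by
    simp only [bc_smul_def, smul_eq_mul, mul_assoc]

variable {ι : Type*} [DecidableEq ι] [Fintype ι] (b : Module.Basis ι E E')

/-- The coordinates give a left `Δ`-linear isomorphism `E' ⊗[E] Δ ≃ (ι → Δ)`. -/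
noncomputable def coordEquiv : (E' ⊗[E] Δ) ≃ₗ[Δ] (ι → Δ) where
  toFun x i := coord b i x
  map_add' x y := by ext i; simp
  map_smul' δ x := by
    ext i
    simp only [bc_smul_def, coord_incR_mul, RingHom.id_apply, Pi.smul_apply, smul_eq_mul]
  invFun c := ∑ i, b i ⊗ₜ[E] c i
  left_inv x := sum_coord b x
  right_inv c := by
    ext j
    simp only [map_sum, coord_tmul, Module.Basis.repr_self]
    rw [Finset.sum_eq_single j]
    · simp
    · intro i _ hij
      simp [Finsupp.single_apply, hij]
    · simp

theorem bc_finite [Module.Finite E E'] : Module.Finite Δ (E' ⊗[E] Δ) :=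
  Module.Finite.equiv (coordEquiv (Module.finBasis E E')).symm

theorem bc_finrank [Module.Finite E E'] : Module.finrank Δ (E' ⊗[E] Δ) = Module.finrank E E' := by
  rw [LinearEquiv.finrank_eq (coordEquiv (Δ := Δ) (Module.finBasis E E'))]
  simp

theorem bc_artinian [Module.Finite E E'] : IsArtinianRing (E' ⊗[E] Δ) := by
  haveI := bc_finite (E := E) (E' := E') (Δ := Δ)
  haveI : IsArtinian Δ (E' ⊗[E] Δ) := inferInstance
  exact isArtinian_of_tower Δ inferInstance

end ModuleStructure

end Vale.Agent.P199
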