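import Vale.Agent.P199.Final

/-!
# Brauer triviality passes to algebraic extensions, and consequences
-/

namespace Vale.Agent.P199

open scoped TensorProduct BigOperators Matrix Cardinal
open TensorProduct Polynomial

universe u

/-- Brauer triviality passes to algebraic extensions: a finite-dimensional central division algebra
over an algebraic extension of `k` is spanned by elements generating a finite-dimensional algebra
over `k`. -/
theorem BrauerTrivial.of_algebraic {k F : Type u} [Field k] [Field F] [Algebra k F]
    [Algebra.IsAlgebraic k F] (h : BrauerTrivial k) : BrauerTrivial F := by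
  intro Z _ _ _ A _ _ _ _
  classical
  letI : Algebra k Z := ((algebraMap F Z).comp (algebraMap k F)).toAlgebra
  haveI : IsScalarTower k F Z := IsScalarTower.of_algebraMap_eq' rfl
  haveI : Algebra.IsAlgebraic F Z := Algebra.IsAlgebraic.of_finite F Z
  haveI : Algebra.IsAlgebraic k Z := Algebra.IsAlgebraic.trans k F Z
  letI : Algebra k A := Algebra.compHom A (algebraMap k Z)
  haveI : IsScalarTower k Z A := IsScalarTower.of_algebraMap_eq' rfl
  haveI : Algebra.IsAlgebraic Z A := Algebra.IsAlgebraic.of_finite Z A
  haveI : Algebra.IsAlgebraic k A := Algebra.IsAlgebraic.trans k Z A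
  let e := Module.finBasis Z A
  let S : Set Z := (Set.range fun t : (Fin _ × Fin _ × Fin _) =>
      e.repr (e t.1 * e t.2.1) t.2.2) ∪ (Set.range fun l : Fin _ => e.repr 1 l)
  have hS : S.Finite := (Set.finite_range _).union (Set.finite_range _)
  let Z₀ : Subalgebra k Z := Algebra.adjoin k S
  have hZ₀ : Module.Finite k Z₀ := by
    refine Module.Finite.iff_fg.mpr (fg_adjoin_of_finite hS ?_)
    intro x _
    exact Algebra.IsIntegral.isIntegral x
  -- the subalgebra of elements with coordinates in `Z₀`
  let W : Submodule k A :=
    { carrier := {y | ∀ l, e.repr y l ∈ Z₀}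
      add_mem' := by
        intro a b ha hb l
        simp only [map_add, Finsupp.add_apply]
        exact Z₀.add_mem (ha l) (hb l)
      zero_mem' := by
        intro l
        simp
      smul_mem' := by
        intro c a ha l
        have : e.repr (c • a) l = c • e.repr a l := by
          rw [← algebraMap_smul Z c a, map_smul, Finsupp.smul_apply, algebraMap_smul]
        rw [this]
        exact Z₀.smul_mem (ha l) c }
  have hW1 : (1 : A) ∈ W := fun l => Algebra.subset_adjoin (Or.inr ⟨l, rfl⟩)
  have hWmul : ∀ a b : A, a ∈ W → b ∈ W → a * b ∈ W := by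
    intro a b ha hb l
    have h1 : a * b = ∑ i, ∑ j, (e.repr a i * e.repr b j) • (e i * e j) := by
      conv_lhs => rw [← e.sum_repr a, ← e.sum_repr b]
      rw [Finset.sum_mul_sum]
      refine Finset.sum_congr rfl fun i _ => Finset.sum_congr rfl fun j _ => ?_
      rw [smul_mul_smul_comm]
    rw [h1]
    simp only [map_sum, map_smul, Finsupp.coe_finset_sum, Finset.sum_apply, Finsupp.smul_apply,
      smul_eq_mul]
    refine Subalgebra.sum_mem _ fun i _ => Subalgebra.sum_mem _ fun j _ => ?_
    refine Z₀.mul_mem (Z₀.mul_mem (ha i) (hb j)) ?_
    exact Algebra.subset_adjoin (Or.inl ⟨(i, j, l), rfl⟩)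
  let Q : Subalgebra k A := W.toSubalgebra hW1 hWmul
  haveI : Module.Finite k Q := by
    let g : Q →ₗ[k] (Fin (Module.finrank Z A) → Z₀) :=
      { toFun := fun y l => ⟨e.repr (y : A) l, y.2 l⟩
        map_add' := by
          intro a b
          ext l
          simp
        map_smul' := by
          intro c a
          ext l
          have : e.repr (c • (a : A)) l = c • e.repr (a : A) l := by
            rw [← algebraMap_smul Z c (a : A), map_smul, Finsupp.smul_apply, algebraMap_smul]
          simpa using this }
    have hg : Function.Injective g := by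
      intro a b hab
      apply Subtype.ext
      apply e.repr.injective
      ext l
      have := congrFun hab l
      exact congrArg Subtype.val this
    exact Module.Finite.of_injective g hg
  have hcomm := fd_subalgebra_comm h Q
  have he : ∀ i, e i ∈ Q := by
    intro i l
    simp only [Module.Basis.repr_self, Finsupp.single_apply]
    split_ifs
    · exact Z₀.one_mem
    · exact Z₀.zero_mem
  have hee : ∀ i j, e i * e j = e j * e i := fun i j =>
    congrArg Subtype.val (hcomm ⟨e i, he i⟩ ⟨e j, he j⟩)
  intro a b
  conv_lhs => rw [← e.sum_repr a, ← e.sum_repr b]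
  conv_rhs => rw [← e.sum_repr a, ← e.sum_repr b]
  rw [Finset.sum_mul_sum, Finset.sum_mul_sum, Finset.sum_comm]
  refine Finset.sum_congr rfl fun i _ => Finset.sum_congr rfl fun j _ => ?_
  rw [smul_mul_smul_comm, smul_mul_smul_comm, hee, mul_comm]

section Center

variable {k D : Type u} [Field k] [DivisionRing D] [Algebra k D]

/-- The map from a central subfield to the center. -/
noncomputable def toCenter (k D : Type u) [Field k] [DivisionRing D] [Algebra k D] :
    k →+* Subring.center D where
  toFun c := ⟨algebraMap k D c, by
    rw [Subring.mem_center_iff]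
    intro g
    exact (Algebra.commutes c g).symm⟩
  map_one' := by ext; simp
  map_mul' := by intro x y; ext; simp
  map_zero' := by ext; simp
  map_add' := by intro x y; ext; simp

theorem isCentral_center (D : Type u) [DivisionRing D] :
    Algebra.IsCentral (Subring.center D) D := by
  constructor
  intro x hx
  rw [Subalgebra.mem_center_iff] at hx
  rw [Algebra.mem_bot]
  refine ⟨⟨x, ?_⟩, rfl⟩
  rw [Subring.mem_center_iff]
  exact hx

/-- **Theorem A**. A division ring algebraic over an uncountable central subfield
that is Brauer trivial is commutative. -/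
theorem commutative_of_brauerTrivial [Uncountable k] [Algebra.IsAlgebraic k D]
    (h : BrauerTrivial k) : ∀ a b : D, a * b = b * a := by
  letI : Algebra k (Subring.center D) := (toCenter k D).toAlgebra
  haveI : IsScalarTower k (Subring.center D) D := IsScalarTower.of_algebraMap_eq' rfl
  haveI : Uncountable (Subring.center D) := (toCenter k D).injective.uncountable
  haveI : Algebra.IsAlgebraic (Subring.center D) D := Algebra.IsAlgebraic.tower_top (K := k) _
  haveI : Algebra.IsAlgebraic k (Subring.center D) :=
    Algebra.IsAlgebraic.of_injective (IsScalarTower.toAlgHom k (Subring.center D) D)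
      Subtype.val_injective
  haveI := isCentral_center D
  exact main_theorem (F := Subring.center D) (h.of_algebraic)

/-- **Theorem B**. A division ring algebraic over an uncountable central subfield `k`, such that
a finite extension `E` of `k` is Brauer trivial, is finite-dimensional over its center, of
dimension at most `[E : k] ^ 2`. -/
theorem finite_of_brauerTrivial_ext {E : Type u} [Field E] [Algebra k E] [Module.Finite k E]
    [Uncountable k] [Algebra.IsAlgebraic k D] (hE : BrauerTrivial E) :
    Module.Finite (Subring.center D) D ∧
      Module.finrank (Subring.center D) D ≤ (Module.finrank k E) ^ 2 := by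
  classical
  letI : Algebra k (Subring.center D) := (toCenter k D).toAlgebra
  haveI : IsScalarTower k (Subring.center D) D := IsScalarTower.of_algebraMap_eq' rfl
  haveI : Uncountable (Subring.center D) := (toCenter k D).injective.uncountable
  haveI : Algebra.IsAlgebraic (Subring.center D) D := Algebra.IsAlgebraic.tower_top (K := k) _
  haveI : Algebra.IsAlgebraic k (Subring.center D) :=
    Algebra.IsAlgebraic.of_injective (IsScalarTower.toAlgHom k (Subring.center D) D)
      Subtype.val_injective
  haveI := isCentral_center D
  let F := Subring.center D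
  let C := F ⊗[k] E
  haveI : Nontrivial C :=
    (Algebra.TensorProduct.includeRight_injective (R := k) (A := F) (B := E)
      (FaithfulSMul.algebraMap_injective k F)).nontrivial
  obtain ⟨m, hm⟩ := Ideal.exists_maximal C
  let K := C ⧸ m
  letI : Field K := Ideal.Quotient.field m
  haveI : Module.Finite F K := Module.Finite.of_surjective (Ideal.Quotient.mkₐ F m).toLinearMap
    Ideal.Quotient.mk_surjective
  haveI : Uncountable K := (FaithfulSMul.algebraMap_injective F K).uncountable
  letI : Algebra E K := ((Ideal.Quotient.mk m).comp
    (Algebra.TensorProduct.includeRight : E →ₐ[k] C).toRingHom).toAlgebra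
  haveI : IsScalarTower k E K := by
    refine IsScalarTower.of_algebraMap_eq fun c => ?_
    change Ideal.Quotient.mk m (algebraMap k C c) = Ideal.Quotient.mk m ((1 : F) ⊗ₜ[k] algebraMap k E c)
    congr 1
    rw [Algebra.algebraMap_eq_smul_one, Algebra.algebraMap_eq_smul_one, TensorProduct.tmul_smul]
    rfl
  haveI : Algebra.IsAlgebraic F K := Algebra.IsAlgebraic.of_finite F K
  haveI : IsScalarTower k F K := IsScalarTower.of_algebraMap_eq fun c => rfl
  haveI : Algebra.IsAlgebraic k K := Algebra.IsAlgebraic.trans k F K
  haveI : Algebra.IsAlgebraic E K := Algebra.IsAlgebraic.tower_top (K := k) _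
  have hK : BrauerTrivial K := hE.of_algebraic
  obtain ⟨n, hn, Δ₁, hΔ₁, halg, hc, ha, ⟨e⟩⟩ := wedderburn_bc F K D
  have hcomm : ∀ a b : Δ₁, a * b = b * a := main_theorem (F := K) (D := Δ₁) hK
  have hsurj : Function.Surjective (algebraMap K Δ₁) := by
    intro y
    have hy : y ∈ Subalgebra.center K Δ₁ := by
      rw [Subalgebra.mem_center_iff]
      exact fun b => hcomm b y
    obtain ⟨c, hc'⟩ := (Algebra.IsCentral.mem_center_iff K).mp hy
    exact ⟨c, hc'.symm⟩
  let ψ : K ≃ₐ[K] Δ₁ := AlgEquiv.ofBijective (Algebra.ofId K Δ₁)
    ⟨(algebraMap K Δ₁).injective, hsurj⟩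
  haveI : Module.Finite K Δ₁ := Module.Finite.equiv ψ.toLinearEquiv
  have hfr : Module.finrank K Δ₁ = 1 := by
    rw [← LinearEquiv.finrank_eq ψ.toLinearEquiv]
    exact Module.finrank_self K
  haveI : Module.Finite K (K ⊗[F] D) := Module.Finite.equiv e.symm.toLinearEquiv
  have hfinD : Module.Finite F D :=
    Module.Finite.of_finite_tensorProduct_of_faithfullyFlat K
  refine ⟨hfinD, ?_⟩
  have h1 : Module.finrank F D = n * n := by
    rw [← Module.finrank_baseChange (R := K), LinearEquiv.finrank_eq e.toLinearEquiv,
      Module.finrank_matrix, hfr]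
    simp
  have h2 : n ≤ Module.finrank F K := by
    have h3 := wedderburn_dim (E := F) (E' := K) (Δ := D) e
    refine Nat.le_of_dvd Module.finrank_pos ⟨_, h3⟩
  have h3 : Module.finrank F K ≤ Module.finrank k E := by
    have h4 : Module.finrank F C = Module.finrank k E := Module.finrank_baseChange
    rw [← h4]
    exact LinearMap.finrank_le_finrank_of_surjective (f := (Ideal.Quotient.mkₐ F m).toLinearMap)
      Ideal.Quotient.mk_surjective
  rw [h1, sq]
  exact Nat.mul_le_mul (h2.trans h3) (h2.trans h3)

end Center

end Vale.Agent.P199
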