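import Vale.Agent.P199.LemmaC

/-!
# The final theorem: algebraic central division algebras over uncountable
Brauer-trivial fields are commutative.
-/

namespace Vale.Agent.P199

open scoped TensorProduct BigOperators Matrix
open TensorProduct Polynomial

universe u

section Left

attribute [local instance] bcModule

/-- Left inverses in `K ⊗ Δ` for a subfield `K` of `L`, when `L ⊗ Δ` is a division ring. -/
theorem left_inverse_of_embedding {E K L Δ : Type u} [Field E] [Field K] [Algebra E K]
    [Module.Finite E K] [Field L] [Algebra E L] [DivisionRing Δ] [Algebra E Δ]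
    (ι : K →ₐ[E] L) (hL : ∀ y : L ⊗[E] Δ, IsUnit y ∨ y = 0) (w : K ⊗[E] Δ) (hw : w ≠ 0) :
    ∃ w', w' * w = 1 := by
  let f : K ⊗[E] Δ →ₐ[E] L ⊗[E] Δ := Algebra.TensorProduct.map ι (AlgHom.id E Δ)
  have hinj : Function.Injective f := by
    have hι : Function.Injective ι.toLinearMap := ι.toRingHom.injective
    exact Module.Flat.rTensor_preserves_injective_linearMap (M := Δ) ι.toLinearMap hι
  haveI := bc_finite (E := E) (E' := K) (Δ := Δ)
  have hfw : f w ≠ 0 := fun h => hw (hinj (by rw [h, map_zero]))
  have hu : IsUnit (f w) := (hL (f w)).resolve_right hfw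
  have hRinj : Function.Injective (LinearMap.mulRight Δ w) := by
    rw [injective_iff_map_eq_zero]
    intro z hz
    have h1 : z * w = 0 := hz
    have h2 : f z * f w = 0 := by rw [← map_mul, h1, map_zero]
    have h3 : f z = 0 := (hu.mul_left_eq_zero).mp h2
    exact hinj (by rw [h3, map_zero])
  have hRsurj : Function.Surjective (LinearMap.mulRight Δ w) :=
    LinearMap.injective_iff_surjective.mp hRinj
  obtain ⟨w', hw'⟩ := hRsurj 1
  exact ⟨w', hw'⟩

end Left

section Op

variable {E Δ₁ : Type u} [Field E] [DivisionRing Δ₁] [Algebra E Δ₁] {n : ℕ}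

/-- Right multiplication by a matrix, on row vectors. -/
def rowOp (A : Matrix (Fin n) (Fin n) Δ₁) : Module.End Δ₁ (Fin n → Δ₁) where
  toFun v := v ᵥ* A
  map_add' v w := Matrix.add_vecMul A v w
  map_smul' c v := by
    simp [Matrix.smul_vecMul]

lemma rowOp_apply (A : Matrix (Fin n) (Fin n) Δ₁) (v : Fin n → Δ₁) : rowOp A v = v ᵥ* A := rfl

lemma aeval_rowOp (A : Matrix (Fin n) (Fin n) Δ₁) (g : E[X]) (v : Fin n → Δ₁) :
    aeval (rowOp A) g v = v ᵥ* aeval A g := by
  induction g using Polynomial.induction_on' generalizing v with
  | add p q hp hq =>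
    simp only [map_add, LinearMap.add_apply, hp, hq, Matrix.vecMul_add]
  | monomial k a =>
    have h3 : ∀ (k : ℕ) (v : Fin n → Δ₁), ((rowOp A) ^ k) v = v ᵥ* (A ^ k) := by
      intro k
      induction k with
      | zero =>
        intro v
        simp
      | succ k ih =>
        intro v
        rw [pow_succ', Module.End.mul_apply, ih, rowOp_apply, Matrix.vecMul_vecMul, pow_succ]
    rw [Polynomial.aeval_monomial, Polynomial.aeval_monomial, ← Algebra.smul_def, ← Algebra.smul_def,
      LinearMap.smul_apply, h3]
    ext i
    simp only [Matrix.vecMul, dotProduct, Pi.smul_apply, Matrix.smul_apply, Finset.smul_sum]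
    refine Finset.sum_congr rfl fun j _ => ?_
    rw [mul_smul_comm]

end Op

section Main

variable {F D : Type u} [Field F] [Uncountable F] [DivisionRing D] [Algebra F D]
  [Algebra.IsCentral F D] [Algebra.IsAlgebraic F D]

/-- Main theorem: an algebraic central division algebra over an uncountable
field with trivial Brauer groups of all finite extensions is commutative. -/
theorem main_theorem (hF : BrauerTrivial F) : ∀ a b : D, a * b = b * a := by
  classical
  by_contra hnc
  have hneq : (⊥ : Subalgebra F D) ≠ ⊤ := by
    intro h
    apply hnc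
    intro a b
    have ha : a ∈ (⊥ : Subalgebra F D) := by rw [h]; trivial
    obtain ⟨c, rfl⟩ := Algebra.mem_bot.mp ha
    exact Algebra.commutes c b
  obtain ⟨x, hx, hsep⟩ := JacobsonNoether.exists_separable_and_not_isCentral' hneq
  have hxint : IsIntegral F x := Algebra.IsIntegral.isIntegral x
  let p : F[X] := minpoly F x
  have hpirr : Irreducible p := minpoly.irreducible hxint
  have hpm : p.Monic := minpoly.monic hxint
  have hdeg : p.natDegree ≠ 1 := by
    intro h
    apply hx
    have := minpoly.natDegree_eq_one_iff.mp h
    exact Algebra.mem_bot.mpr this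
  have hdeg0 : p.natDegree ≠ 0 := hpirr.natDegree_pos.ne'
  let q := p.natDegree.minFac
  have hq : q.Prime := Nat.minFac_prime hdeg
  haveI : Fact q.Prime := ⟨hq⟩
  have hqp : q ∣ p.natDegree := Nat.minFac_dvd _
  let L := p.SplittingField
  haveI : IsGalois F L := IsGalois.of_separable_splitting_field hsep
  let G := L ≃ₐ[F] L
  let P : Sylow q G := default
  obtain ⟨k, hk⟩ : ∃ k, Nat.card (P : Subgroup G) = q ^ k := IsPGroup.iff_card.mp P.isPGroup'
  have hnd : ¬ q ∣ (P : Subgroup G).index := P.not_dvd_index
  let E := IntermediateField.fixedField (P : Subgroup G)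
  have hEL : Module.finrank E L = q ^ k := by
    rw [IntermediateField.finrank_fixedField_eq_card, hk]
  have hFE : Module.finrank F E = (P : Subgroup G).index := by
    have h1 := Module.finrank_mul_finrank F E L
    rw [← IsGalois.card_aut_eq_finrank F L, hEL, ← Subgroup.card_mul_index (P : Subgroup G), hk,
      mul_comm] at h1
    exact Nat.eq_of_mul_eq_mul_left (pow_pos hq.pos k) h1
  have hndE : ¬ q ∣ Module.finrank F E := by rwa [hFE]
  haveI : Uncountable E := (FaithfulSMul.algebraMap_injective F E).uncountable
  have hB : BrauerTrivial E := hF.extend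
  obtain ⟨n, hn, Δ₁, hΔ₁, halg, hc, ha, ⟨e⟩⟩ := wedderburn_bc F E D
  have hdim := wedderburn_dim e
  have hnd2 : ¬ q ∣ n := fun h => hndE (h.trans ⟨_, hdim⟩)
  -- the matrix
  let A : Matrix (Fin n) (Fin n) Δ₁ := e (incR F E D x)
  let pE : E[X] := p.map (algebraMap F E)
  have hpE0 : pE ≠ 0 := (hpm.map _).ne_zero
  have hA : aeval A pE = 0 := by
    have h1 : aeval (incR F E D x) pE = 0 := by
      rw [Polynomial.aeval_map_algebraMap]
      have h2 : aeval (incR F E D x) p = incR F E D (aeval x p) := Polynomial.aeval_algHom_apply _ _ _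
      rw [h2, minpoly.aeval, map_zero]
    have h3 : aeval A pE = e (aeval (incR F E D x) pE) :=
      Polynomial.aeval_algHom_apply e.toAlgHom (incR F E D x) pE
    rw [h3, h1, map_zero]
  have hT : aeval (rowOp A) pE = 0 := by
    refine LinearMap.ext fun v => ?_
    rw [aeval_rowOp, hA]
    simp
  -- apply the dimension lemma
  have hfinal : q ∣ n := by
    have := lemmaC (E := E) (Δ := Δ₁) q pE hpE0 ?_ n (Fin n → Δ₁) (rowOp A) (by simp) hT
    · exact this
    · intro h hm hi hdvd
      have hsplit : (pE.map (algebraMap E L)).Splits := by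
        simp only [pE, Polynomial.map_map]
        rw [← IsScalarTower.algebraMap_eq F E L]
        exact Polynomial.IsSplittingField.splits L p
      have hsplit2 : (h.map (algebraMap E L)).Splits :=
        hsplit.of_dvd ((hpm.map _).map _).ne_zero (Polynomial.map_dvd _ hdvd)
      have hdeg2 : (h.map (algebraMap E L)).degree ≠ 0 := by
        rw [hm.degree_map]
        intro h0
        have := hi.natDegree_pos
        rw [Polynomial.natDegree_eq_zero_iff_degree_le_zero.mpr h0.le] at this
        exact lt_irrefl _ this
      obtain ⟨β, hβ⟩ := hsplit2.exists_eval_eq_zero hdeg2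
      have hβ' : aeval β h = 0 := by
        rw [Polynomial.aeval_def, ← Polynomial.eval_map]
        exact hβ
      have hmin : h = minpoly E β := minpoly.eq_of_irreducible_of_monic hi hβ' hm
      have hβint : IsIntegral E β := Algebra.IsIntegral.isIntegral β
      haveI : Fact (Irreducible h) := ⟨hi⟩
      constructor
      · -- degree divisible by `q`
        have h1 : h.natDegree ∣ q ^ k := by
          rw [← hEL, hmin]
          exact minpoly.degree_dvd hβint
        obtain ⟨a, -, ha'⟩ := (Nat.dvd_prime_pow hq).mp h1
        rcases Nat.eq_zero_or_pos a with h0 | h0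
        · exfalso
          rw [h0, pow_zero] at ha'
          rw [hmin] at ha'
          obtain ⟨β₀, rfl⟩ := minpoly.natDegree_eq_one_iff.mp ha'
          -- `β₀ ∈ E` is a root of `p`
          have hβ₀ : aeval β₀ p = 0 := by
            have h2 : aeval (algebraMap E L β₀) pE = 0 := by
              obtain ⟨g, hg⟩ := hdvd
              rw [hg, map_mul, hβ', zero_mul]
            rw [Polynomial.aeval_map_algebraMap] at h2
            have h3 : aeval (algebraMap E L β₀) p = algebraMap E L (aeval β₀ p) := by
              rw [Polynomial.aeval_algebraMap_apply]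
            rw [h3] at h2
            exact (map_eq_zero_iff _ (algebraMap E L).injective).mp h2
          have hmin2 : p = minpoly F β₀ :=
            minpoly.eq_of_irreducible_of_monic hpirr hβ₀ hpm
          have h4 : p.natDegree ∣ Module.finrank F E := by
            have h5 : (minpoly F β₀).natDegree ∣ Module.finrank F E :=
              minpoly.degree_dvd (Algebra.IsIntegral.isIntegral β₀)
            have h6 : p.natDegree = (minpoly F β₀).natDegree := congrArg natDegree hmin2
            rw [h6]
            exact h5
          exact hndE (hqp.trans h4)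
        · rw [ha']
          exact dvd_pow_self q h0.ne'
      · -- left inverses
        have hroot : h.eval₂ (Algebra.ofId E L : E →ₐ[E] L).toRingHom β = 0 := hβ'
        let ι : AdjoinRoot h →ₐ[E] L := AdjoinRoot.liftAlgHom h (Algebra.ofId E L) β hroot
        haveI : Module.Finite E (AdjoinRoot h) := (AdjoinRoot.powerBasis hi.ne_zero).finite
        intro w hw
        exact left_inverse_of_embedding ι (tower q hq k E L Δ₁ hB hEL) w hw
  exact hnd2 hfinal

end Main

end Vale.Agent.P199
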