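import Vale.Agent.P199.Wedderburn

/-!
# A Galois subfield of an algebraic central division algebra generates a noncommutative
finite-dimensional subalgebra
-/

namespace Vale.Agent.P199

open scoped TensorProduct BigOperators Pointwise
open TensorProduct Polynomial

universe u

section FD

variable {E Δ : Type u} [Field E] [DivisionRing Δ] [Algebra E Δ] [Algebra.IsAlgebraic E Δ]

/-- Finite-dimensional subalgebras of an algebraic division algebra over a
Brauer-trivial field are commutative. -/
theorem fd_subalgebra_comm (hB : BrauerTrivial E) (Q : Subalgebra E Δ) [Module.Finite E Q] :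
    ∀ a b : Q, a * b = b * a := by
  have hunit : ∀ a : Q, IsUnit a ∨ a = 0 := by
    intro a
    by_cases ha : a = 0
    · exact Or.inr ha
    · left
      have ha' : (a : Δ) ≠ 0 := fun h => ha (Subtype.ext h)
      have hinv := inv_mem_of_alg Q a.2 (Algebra.IsAlgebraic.isAlgebraic (a : Δ))
      refine ⟨⟨a, ⟨(a : Δ)⁻¹, hinv⟩, Subtype.ext (mul_inv_cancel₀ ha'),
        Subtype.ext (inv_mul_cancel₀ ha')⟩, rfl⟩
  letI : DivisionRing Q := DivisionRing.ofIsUnitOrEqZero hunit
  let Z := Subring.center Q
  let f : E →+* Z :=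
    { toFun := fun c => ⟨algebraMap E Q c, by
        rw [Subring.mem_center_iff]
        intro g
        exact (Algebra.commutes c g).symm⟩
      map_one' := by ext; simp
      map_mul' := by intro x y; ext; simp
      map_zero' := by ext; simp
      map_add' := by intro x y; ext; simp }
  letI : Algebra E Z := f.toAlgebra
  haveI : IsScalarTower E Z Q := IsScalarTower.of_algebraMap_eq' rfl
  haveI : Module.Finite E Z := by
    let g : Z →ₗ[E] Q := (IsScalarTower.toAlgHom E Z Q).toLinearMap
    have hg : Function.Injective g := Subtype.val_injective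
    exact Module.Finite.of_injective g hg
  haveI : Module.Finite Z Q := Module.Finite.of_restrictScalars_finite E Z Q
  haveI : Algebra.IsCentral Z Q := by
    constructor
    intro x hx
    rw [Subalgebra.mem_center_iff] at hx
    rw [Algebra.mem_bot]
    refine ⟨⟨x, ?_⟩, rfl⟩
    rw [Subring.mem_center_iff]
    exact hx
  exact hB Z Q

end FD

section Embed

variable {E E' Δ : Type u} [Field E] [Field E'] [Algebra E E'] [FiniteDimensional E E']
  [IsGalois E E'] [DivisionRing Δ] [Algebra E Δ] [Algebra.IsCentral E Δ]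
  [Algebra.IsAlgebraic E Δ]

/-- There is no embedding of a nontrivial Galois extension in `Δ`, if `E` is Brauer trivial. -/
theorem no_galois_subfield (hB : BrauerTrivial E) (hdeg : 1 < Module.finrank E E')
    (ι : E' →ₐ[E] Δ) : False := by
  classical
  let pb := Field.powerBasisOfFiniteOfSeparable E E'
  let θ := pb.gen
  haveI : Finite (E' ≃ₐ[E] E') := inferInstance
  have hcard : 1 < Nat.card (E' ≃ₐ[E] E') := by
    rw [IsGalois.card_aut_eq_finrank]
    exact hdeg
  haveI : Nontrivial (E' ≃ₐ[E] E') := Finite.one_lt_card_iff_nontrivial.mp hcard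
  obtain ⟨σ, hσ⟩ := exists_ne (1 : E' ≃ₐ[E] E')
  have hσθ : σ θ ≠ θ := by
    intro h
    apply hσ
    have : (σ : E' →ₐ[E] E') = AlgHom.id E E' := pb.algHom_ext (by simpa using h)
    ext x
    exact DFunLike.congr_fun this x
  have hint : IsIntegral E θ := Algebra.IsIntegral.isIntegral θ
  let h := minpoly E θ
  have hmonic : h.Monic := minpoly.monic hint
  have hinj : Function.Injective ι := ι.toRingHom.injective
  have hroot : aeval θ h = 0 := minpoly.aeval E θ
  have hα : aeval (ι θ) h = 0 := by
    rw [Polynomial.aeval_algHom_apply, hroot, map_zero]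
  have hβ : aeval (ι (σ θ)) h = 0 := by
    have : aeval (σ θ) h = 0 := by
      rw [show σ θ = (σ : E' →ₐ[E] E') θ from rfl, Polynomial.aeval_algHom_apply, hroot, map_zero]
    rw [Polynomial.aeval_algHom_apply, this, map_zero]
  have hind : LinearIndependent E (fun i : Fin h.natDegree => (ι θ) ^ (i : ℕ)) := by
    have h1 := linearIndependent_pow (K := E) θ
    have h2 := h1.map' ι.toLinearMap (LinearMap.ker_eq_bot.mpr hinj)
    have h3 : (fun i : Fin h.natDegree => (ι θ) ^ (i : ℕ))
        = ι.toLinearMap ∘ (fun i : Fin (minpoly E θ).natDegree => θ ^ (i : ℕ)) := by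
      funext i
      simp
    rw [h3]
    exact h2
  obtain ⟨u, hu0, hu⟩ := exists_conj h hmonic (ι θ) (ι (σ θ)) hα hβ hind
  -- the commutation relation
  have hsemi : ∀ k : ℕ, u * (ι θ) ^ k = (ι (σ θ)) ^ k * u := by
    intro k
    exact (SemiconjBy.pow_right (show SemiconjBy u (ι θ) (ι (σ θ)) from hu) k).eq
  have hrel : ∀ y : E', u * ι y = ι (σ y) * u := by
    intro y
    obtain ⟨p, rfl⟩ := pb.exists_eq_aeval' y
    have h1 : ι (aeval pb.gen p) = aeval (ι θ) p := by
      rw [Polynomial.aeval_algHom_apply]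
    have h2 : ι (σ (aeval pb.gen p)) = aeval (ι (σ θ)) p := by
      rw [Polynomial.aeval_algHom_apply]
      congr 1
      exact Polynomial.aeval_algHom_apply (σ : E' →ₐ[E] E') θ p |>.symm
    rw [h1, h2, Polynomial.aeval_eq_sum_range, Polynomial.aeval_eq_sum_range, Finset.mul_sum,
      Finset.sum_mul]
    refine Finset.sum_congr rfl fun k _ => ?_
    rw [mul_smul_comm, smul_mul_assoc, hsemi]
  -- the finite-dimensional subalgebra
  let I : Submodule E Δ := LinearMap.range ι.toLinearMap
  let U : Submodule E Δ := Subalgebra.toSubmodule (Algebra.adjoin E {u})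
  have hI1 : (1 : Δ) ∈ I := ⟨1, map_one ι⟩
  have hU1 : (1 : Δ) ∈ U := (Algebra.adjoin E {u}).one_mem
  have hIfg : I.FG := by
    have : Module.Finite E I := Module.Finite.range ι.toLinearMap
    exact (Submodule.fg_top I).mp (Module.finite_def.mp this)
  have hUfg : U.FG :=
    IsIntegral.fg_adjoin_singleton (Algebra.IsIntegral.isIntegral u)
  have hII : ∀ a ∈ I, ∀ b ∈ I, a * b ∈ I := by
    rintro _ ⟨x, rfl⟩ _ ⟨y, rfl⟩
    exact ⟨x * y, by simp⟩
  have hUU : ∀ a ∈ U, ∀ b ∈ U, a * b ∈ U := fun a ha b hb =>
    (Algebra.adjoin E {u}).mul_mem ha hb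
  -- `W * U ≤ W`
  have hWU : ∀ w ∈ I * U, ∀ a ∈ U, w * a ∈ I * U := by
    intro w hw a ha
    refine Submodule.mul_induction_on hw ?_ ?_
    · intro x hx y hy
      rw [mul_assoc]
      exact Submodule.mul_mem_mul hx (hUU y hy a ha)
    · intro x y hx hy
      rw [add_mul]
      exact Submodule.add_mem _ hx hy
  -- `U * I ≤ W`
  have hUI' : ∀ a ∈ Algebra.adjoin E {u}, ∀ y ∈ I, a * y ∈ I * U := by
    intro a ha
    induction ha using Algebra.adjoin_induction with
    | mem x hx =>
      rw [Set.mem_singleton_iff.mp hx]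
      rintro _ ⟨y, rfl⟩
      change u * ι y ∈ I * U
      rw [hrel]
      refine Submodule.mul_mem_mul ⟨σ y, rfl⟩ ?_
      exact Algebra.subset_adjoin rfl
    | algebraMap c =>
      intro y hy
      rw [← Algebra.smul_def]
      have : y * 1 ∈ I * U := Submodule.mul_mem_mul hy hU1
      rw [mul_one] at this
      exact Submodule.smul_mem _ c this
    | add x y _ _ hx hy =>
      intro z hz
      rw [add_mul]
      exact Submodule.add_mem _ (hx z hz) (hy z hz)
    | mul x y _ _ hx hy =>
      intro z hz
      rw [mul_assoc]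
      have h1 : y * z ∈ I * U := hy z hz
      refine Submodule.mul_induction_on h1 ?_ ?_
      · intro i hi v hv
        rw [← mul_assoc]
        exact hWU _ (hx i hi) v hv
      · intro w1 w2 h1 h2
        rw [mul_add]
        exact Submodule.add_mem _ h1 h2
  -- `I * W ≤ W`
  have hIW : ∀ a ∈ I, ∀ w ∈ I * U, a * w ∈ I * U := by
    intro a ha w hw
    refine Submodule.mul_induction_on hw ?_ ?_
    · intro i hi v hv
      rw [← mul_assoc]
      exact Submodule.mul_mem_mul (hII a ha i hi) hv
    · intro w1 w2 h1 h2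
      rw [mul_add]
      exact Submodule.add_mem _ h1 h2
  -- `W * I ≤ W`
  have hWI : ∀ w ∈ I * U, ∀ i ∈ I, w * i ∈ I * U := by
    intro w hw i hi
    refine Submodule.mul_induction_on hw ?_ ?_
    · intro i' hi' v hv
      rw [mul_assoc]
      exact hIW i' hi' _ (hUI' v hv i hi)
    · intro w1 w2 h1 h2
      rw [add_mul]
      exact Submodule.add_mem _ h1 h2
  have hWW : ∀ a b : Δ, a ∈ I * U → b ∈ I * U → a * b ∈ I * U := by
    intro a b ha hb
    refine Submodule.mul_induction_on hb ?_ ?_
    · intro i hi v hv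
      rw [← mul_assoc]
      exact hWU _ (hWI a ha i hi) v hv
    · intro w1 w2 h1 h2
      rw [mul_add]
      exact Submodule.add_mem _ h1 h2
  have hW1 : (1 : Δ) ∈ I * U := by
    have := Submodule.mul_mem_mul hI1 hU1
    rwa [mul_one] at this
  let Q : Subalgebra E Δ := (I * U).toSubalgebra hW1 hWW
  haveI hQfin : Module.Finite E Q := by
    have hfg : (I * U).FG := hIfg.mul hUfg
    have : Module.Finite E (I * U : Submodule E Δ) := Module.Finite.iff_fg.mpr hfg
    exact this
  have hcomm := fd_subalgebra_comm hB Q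
  have huQ : u ∈ Q := by
    have := Submodule.mul_mem_mul hI1 (show u ∈ U from Algebra.subset_adjoin rfl)
    rwa [one_mul] at this
  have hαQ : ι θ ∈ Q := by
    have := Submodule.mul_mem_mul (show ι θ ∈ I from ⟨θ, rfl⟩) hU1
    rwa [mul_one] at this
  have h5 := congrArg Subtype.val (hcomm ⟨u, huQ⟩ ⟨ι θ, hαQ⟩)
  have h6 : u * ι θ = ι θ * u := h5
  rw [hu] at h6
  exact hσθ (hinj (mul_right_cancel₀ hu0 h6))

end Embed

end Vale.Agent.P199
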