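import Mathlib

/-!
# Independence of left-right multiplications and conjugacy of roots in a division algebra
-/

namespace Vale.Agent.P199

open scoped BigOperators
open Polynomial

universe u

section Indep

variable {E : Type*} {Δ : Type u} [Field E] [DivisionRing Δ] [Algebra E Δ] [Algebra.IsCentral E Δ]

/-- If `∑ aᵢ x bᵢ = 0` for all `x`, and the `bᵢ` are independent over the center,
then all `aᵢ = 0`. -/
theorem indep_lr {ι : Type*} [DecidableEq ι] (b : ι → Δ) (hb : LinearIndependent E b)
    (s : Finset ι) : ∀ a : ι → Δ, (∀ x : Δ, ∑ i ∈ s, a i * x * b i = 0) → ∀ i ∈ s, a i = 0 := by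
  induction s using Finset.strongInduction with
  | H s ih =>
    intro a ha i0 hi0
    by_contra hne
    -- normalise
    set a' : ι → Δ := fun i => (a i0)⁻¹ * a i with ha'
    have h1 : ∀ x : Δ, ∑ i ∈ s, a' i * x * b i = 0 := by
      intro x
      have := congrArg (fun t => (a i0)⁻¹ * t) (ha x)
      simp only [mul_zero, Finset.mul_sum] at this
      rw [← this]
      refine Finset.sum_congr rfl fun i _ => ?_
      simp only [ha', mul_assoc]
    have h2 : a' i0 = 1 := by simp [ha', hne]
    -- commutators vanish
    have h3 : ∀ y : Δ, ∀ i ∈ s, a' i * y = y * a' i := by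
      intro y
      have hc : ∀ x : Δ, ∑ i ∈ s.erase i0, (a' i * y - y * a' i) * x * b i = 0 := by
        intro x
        have h4 : ∑ i ∈ s, (a' i * y - y * a' i) * x * b i = 0 := by
          have h5 := h1 (y * x)
          have h6 := congrArg (fun t => y * t) (h1 x)
          simp only [mul_zero, Finset.mul_sum] at h6
          calc _ = ∑ i ∈ s, a' i * (y * x) * b i - ∑ i ∈ s, y * (a' i * x * b i) := by
                rw [← Finset.sum_sub_distrib]
                refine Finset.sum_congr rfl fun i _ => ?_
                noncomm_ring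
            _ = 0 := by rw [h5, h6, sub_zero]
        rw [← Finset.add_sum_erase s _ hi0] at h4
        rw [h2] at h4
        simpa using h4
      intro i hi
      by_cases hii : i = i0
      · subst hii
        rw [h2]; simp
      · have := ih (s.erase i0) (Finset.erase_ssubset hi0)
          (fun i => a' i * y - y * a' i) hc i (Finset.mem_erase.mpr ⟨hii, hi⟩)
        exact sub_eq_zero.mp this
    -- hence central
    have h7 : ∀ i ∈ s, ∃ e : E, a' i = algebraMap E Δ e := by
      intro i hi
      have : a' i ∈ Subalgebra.center E Δ := by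
        rw [Subalgebra.mem_center_iff]
        intro y
        exact (h3 y i hi).symm
      obtain ⟨e, he⟩ := (Algebra.IsCentral.mem_center_iff E).mp this
      exact ⟨e, he⟩
    choose! e he using h7
    have h8 : ∑ i ∈ s, e i • b i = 0 := by
      have := h1 1
      rw [← this]
      refine Finset.sum_congr rfl fun i hi => ?_
      rw [he i hi, Algebra.smul_def]
      simp
    have h9 := (linearIndependent_iff'.mp hb) s e h8 i0 hi0
    have h10 : a' i0 = 0 := by rw [he i0 hi0, h9, map_zero]
    rw [h2] at h10
    exact one_ne_zero h10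

/-- (Dickson) Two elements `α, β` of a central division algebra which are roots of the same monic
polynomial `h` of degree `d`, with the powers `α^i`, `i < d` independent, are conjugate:
there is `u ≠ 0` with `u * α = β * u`. -/
theorem exists_conj (h : E[X]) (hmonic : h.Monic) (α β : Δ)
    (hα : aeval α h = 0) (hβ : aeval β h = 0)
    (hind : LinearIndependent E (fun i : Fin h.natDegree => α ^ (i : ℕ))) :
    ∃ u : Δ, u ≠ 0 ∧ u * α = β * u := by
  classical
  by_contra hno
  push_neg at hno
  -- the operators of right and left multiplication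
  let R : Module.End E Δ := LinearMap.mulRight E α
  let L : Module.End E Δ := LinearMap.mulLeft E β
  have hcomm : Commute R L := (LinearMap.commute_mulLeft_right (R := E) (A := Δ) β α).symm
  -- `R - L` is injective
  have hinj : Function.Injective (R - L) := by
    rw [injective_iff_map_eq_zero]
    intro x hx
    by_contra hx0
    apply hno x hx0
    have : x * α - β * x = 0 := hx
    exact sub_eq_zero.mp this
  set d := h.natDegree with hd
  have hd0 : d ≠ 0 := by
    intro h0
    have : h = 1 := Polynomial.eq_one_of_monic_natDegree_zero hmonic h0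
    rw [this, map_one] at hα
    exact one_ne_zero hα
  -- the quotient operator
  let G : Module.End E Δ :=
    ∑ k ∈ Finset.range (d + 1), h.coeff k • ∑ i ∈ Finset.range k, R ^ i * L ^ (k - 1 - i)
  have hG : ∀ x : Δ, (R - L) (G x) = 0 := by
    intro x
    have h1 : (R - L) * G = ∑ k ∈ Finset.range (d + 1), h.coeff k • (R ^ k - L ^ k) := by
      simp only [G, Finset.mul_sum, mul_smul_comm, hcomm.mul_geom_sum₂]
    have h2 : ((R - L) * G) x = (R - L) (G x) := rfl
    rw [← h2, h1]
    have h3 : (∑ k ∈ Finset.range (d + 1), h.coeff k • (R ^ k - L ^ k)) x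
        = ∑ k ∈ Finset.range (d + 1), h.coeff k • (x * α ^ k - β ^ k * x) := by
      rw [LinearMap.sum_apply]
      refine Finset.sum_congr rfl fun k _ => ?_
      simp only [R, L, LinearMap.smul_apply, LinearMap.sub_apply, LinearMap.pow_mulRight,
        LinearMap.pow_mulLeft, LinearMap.mulRight_apply, LinearMap.mulLeft_apply]
    rw [h3]
    have h4 : aeval α h = ∑ k ∈ Finset.range (d + 1), h.coeff k • α ^ k :=
      Polynomial.aeval_eq_sum_range α
    have h5 : aeval β h = ∑ k ∈ Finset.range (d + 1), h.coeff k • β ^ k :=
      Polynomial.aeval_eq_sum_range β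
    calc _ = x * aeval α h - aeval β h * x := by
          rw [h4, h5, Finset.mul_sum, Finset.sum_mul, ← Finset.sum_sub_distrib]
          refine Finset.sum_congr rfl fun k _ => ?_
          rw [smul_sub, mul_smul_comm, smul_mul_assoc]
      _ = 0 := by rw [hα, hβ, mul_zero, zero_mul, sub_self]
  have hG0 : ∀ x : Δ, G x = 0 := fun x => hinj (by rw [hG x, map_zero])
  -- coefficients
  let a : Fin d → Δ := fun i => ∑ k ∈ Finset.range (d + 1),
    if (i : ℕ) < k then h.coeff k • β ^ (k - 1 - (i : ℕ)) else 0
  have hGa : ∀ x : Δ, ∑ i : Fin d, a i * x * α ^ (i : ℕ) = G x := by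
    intro x
    have h1 : G x = ∑ k ∈ Finset.range (d + 1), ∑ i ∈ Finset.range d,
        if i < k then h.coeff k • (β ^ (k - 1 - i) * x * α ^ i) else 0 := by
      simp only [G, LinearMap.sum_apply, LinearMap.smul_apply]
      refine Finset.sum_congr rfl fun k hk => ?_
      have hk' : k ≤ d := Nat.lt_succ_iff.mp (Finset.mem_range.mp hk)
      have h2 : ∑ i ∈ Finset.range d, (if i < k then h.coeff k • (β ^ (k - 1 - i) * x * α ^ i) else 0)
          = ∑ i ∈ Finset.range k, h.coeff k • (β ^ (k - 1 - i) * x * α ^ i) := by
        rw [← Finset.sum_filter]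
        refine Finset.sum_congr ?_ fun _ _ => rfl
        ext i
        simp only [Finset.mem_filter, Finset.mem_range]
        omega
      rw [h2, Finset.smul_sum]
      refine Finset.sum_congr rfl fun i _ => ?_
      congr 1
      simp only [Module.End.mul_apply, R, L, LinearMap.pow_mulRight, LinearMap.pow_mulLeft,
        LinearMap.mulRight_apply, LinearMap.mulLeft_apply]
    rw [h1, Finset.sum_comm, ← Fin.sum_univ_eq_sum_range (fun i => ∑ k ∈ Finset.range (d + 1),
      if i < k then h.coeff k • (β ^ (k - 1 - i) * x * α ^ i) else 0) d]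
    refine Finset.sum_congr rfl fun i _ => ?_
    simp only [a, Finset.sum_mul]
    refine Finset.sum_congr rfl fun k _ => ?_
    split_ifs
    · rw [smul_mul_assoc, smul_mul_assoc]
    · simp
  have hazero := indep_lr (E := E) (fun i : Fin d => α ^ (i : ℕ)) hind Finset.univ a
    (fun x => by rw [hGa x, hG0 x])
  have hlast : (⟨d - 1, by omega⟩ : Fin d) ∈ (Finset.univ : Finset (Fin d)) := Finset.mem_univ _
  have h6 := hazero _ hlast
  have h7 : a ⟨d - 1, by omega⟩ = 1 := by
    simp only [a]
    rw [Finset.sum_eq_single d]
    · have hlt : d - 1 < d := by omega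
      have hc : h.coeff d = 1 := hmonic.coeff_natDegree
      simp [hlt, hc]
    · intro k hk hkd
      have hk' : k < d + 1 := Finset.mem_range.mp hk
      have : ¬ (d - 1 < k) := by omega
      simp [this]
    · intro hdd
      exact absurd (Finset.mem_range.mpr (Nat.lt_succ_self d)) hdd
  rw [h7] at h6
  exact one_ne_zero h6

end Indep

end Vale.Agent.P199
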