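import Vale.Agent.P199.Tower

/-!
# Divisibility of the dimension of a module with an operator
-/

namespace Vale.Agent.P199

open scoped TensorProduct BigOperators
open TensorProduct Polynomial

universe u

section C

variable {E Δ : Type u} [Field E] [DivisionRing Δ] [Algebra E Δ]
variable {V : Type u} [AddCommGroup V] [Module Δ V] [Module E V] [IsScalarTower E Δ V]

lemma aeval_comm_op (T : Module.End Δ V) (g : E[X]) (v : V) :
    aeval T g (T v) = T (aeval T g v) := by
  have h : aeval T g * T = T * aeval T g := by
    have := congrArg (aeval T) (mul_comm g (X : E[X]))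
    simpa only [map_mul, aeval_X] using this
  exact DFunLike.congr_fun h v

/-- The restriction of the operator to the kernel of a polynomial in it. -/
noncomputable def restrictOp (T : Module.End Δ V) (h : E[X]) :
    Module.End E (LinearMap.ker (aeval T h)) where
  toFun w := ⟨T w, by
    rw [LinearMap.mem_ker, aeval_comm_op, LinearMap.mem_ker.mp w.2, map_zero]⟩
  map_add' x y := by ext; simp
  map_smul' c x := by
    ext
    simp only [RingHom.id_apply]
    change T (c • (x : V)) = c • T (x : V)
    rw [← algebraMap_smul Δ c (x : V), map_smul, algebraMap_smul]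

lemma restrictOp_coe (T : Module.End Δ V) (h : E[X]) (w : LinearMap.ker (aeval T h)) :
    ((restrictOp T h w : LinearMap.ker (aeval T h)) : V) = T w := rfl

lemma aeval_restrictOp_coe (T : Module.End Δ V) (h g : E[X]) (w : LinearMap.ker (aeval T h)) :
    ((aeval (restrictOp T h) g w : LinearMap.ker (aeval T h)) : V) = aeval T g (w : V) := by
  induction g using Polynomial.induction_on' generalizing w with
  | add p q hp hq =>
    simp only [map_add, LinearMap.add_apply, hp, hq, Submodule.coe_add]
  | monomial n a =>
    have h1 : ∀ (S : Module.End Δ V), aeval S (monomial n a) = a • S ^ n := by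
      intro S
      rw [Polynomial.aeval_monomial, Algebra.smul_def]
    have h2 : ∀ (S : Module.End E (LinearMap.ker (aeval T h))),
        aeval S (monomial n a) = a • S ^ n := by
      intro S
      rw [Polynomial.aeval_monomial, Algebra.smul_def]
    have h3 : ∀ (k : ℕ) (w : LinearMap.ker (aeval T h)),
        (((restrictOp T h) ^ k) w : V) = (T ^ k) (w : V) := by
      intro k
      induction k with
      | zero => intro w; rfl
      | succ k ih =>
        intro w
        rw [pow_succ', pow_succ', Module.End.mul_apply, Module.End.mul_apply, restrictOp_coe, ih]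
    rw [h1, h2, LinearMap.smul_apply, LinearMap.smul_apply, Submodule.coe_smul_of_tower, h3]

/-- The action of `AdjoinRoot h` on the kernel of `h(T)`. -/
noncomputable def rootAct (T : Module.End Δ V) (h : E[X]) :
    AdjoinRoot h →ₐ[E] Module.End E (LinearMap.ker (aeval T h)) :=
  Ideal.Quotient.liftₐ (Ideal.span {h}) (aeval (restrictOp T h)) (by
    intro a ha
    obtain ⟨y, rfl⟩ := Ideal.mem_span_singleton.mp ha
    have h0 : aeval (restrictOp T h) h = 0 := by
      ext w
      rw [aeval_restrictOp_coe]
      exact LinearMap.mem_ker.mp w.2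
    rw [map_mul, h0, zero_mul])

lemma rootAct_mk (T : Module.End Δ V) (h g : E[X]) :
    rootAct T h (AdjoinRoot.mk h g) = aeval (restrictOp T h) g := rfl

lemma rootAct_commute (T : Module.End Δ V) (h : E[X]) (x : AdjoinRoot h) (δ : Δ)
    (w : LinearMap.ker (aeval T h)) : rootAct T h x (δ • w) = δ • rootAct T h x w := by
  induction x using AdjoinRoot.induction_on with
  | ih g =>
    rw [rootAct_mk]
    ext
    rw [Submodule.coe_smul, aeval_restrictOp_coe, aeval_restrictOp_coe, Submodule.coe_smul, map_smul]

lemma rootAct_lsmul_commute (T : Module.End Δ V) (h : E[X]) (x : AdjoinRoot h) (δ : Δ) :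
    Commute (rootAct T h x) (Algebra.lsmul E E (LinearMap.ker (aeval T h)) δ) := by
  rw [commute_iff_eq]
  ext w
  simp only [Module.End.mul_apply, Algebra.lsmul_coe]
  rw [rootAct_commute]

/-- The action of the tensor product on the kernel. -/
noncomputable def tensorAct (T : Module.End Δ V) (h : E[X]) :
    AdjoinRoot h ⊗[E] Δ →ₐ[E] Module.End E (LinearMap.ker (aeval T h)) :=
  Algebra.TensorProduct.lift (rootAct T h) (Algebra.lsmul E E (LinearMap.ker (aeval T h)))
    (rootAct_lsmul_commute T h)

lemma tensorAct_tmul (T : Module.End Δ V) (h : E[X]) (x : AdjoinRoot h) (δ : Δ)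
    (w : LinearMap.ker (aeval T h)) : tensorAct T h (x ⊗ₜ[E] δ) w = δ • rootAct T h x w := by
  simp only [tensorAct, Algebra.TensorProduct.lift_tmul, Module.End.mul_apply, Algebra.lsmul_coe]
  rw [rootAct_commute]

lemma coord_sum_tmul {E' : Type u} [Field E'] [Algebra E E'] {ι : Type*} [DecidableEq ι] [Fintype ι]
    (b : Module.Basis ι E E') (c : ι → Δ) (j : ι) :
    coord b j (∑ i, b i ⊗ₜ[E] c i) = c j := by
  simp only [map_sum, coord_tmul, Module.Basis.repr_self]
  rw [Finset.sum_eq_single j]
  · simp
  · intro i _ hij
    simp [Finsupp.single_apply, hij]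
  · simp

/-- The powers of `T` on a vector killed by `h(T)` are independent over `Δ`. -/
theorem indep_powers (h : E[X]) [hirr : Fact (Irreducible h)]
    (hl : ∀ w : AdjoinRoot h ⊗[E] Δ, w ≠ 0 → ∃ w', w' * w = 1)
    (T : Module.End Δ V) (u : V) (hu0 : u ≠ 0) (hu : aeval T h u = 0) :
    LinearIndependent Δ (fun i : Fin h.natDegree => (T ^ (i : ℕ)) u) := by
  classical
  rw [Fintype.linearIndependent_iff]
  intro c hc j
  let pb := AdjoinRoot.powerBasis hirr.out.ne_zero
  let b : Module.Basis (Fin h.natDegree) E (AdjoinRoot h) := pb.basis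
  have hb : ∀ i, b i = AdjoinRoot.root h ^ (i : ℕ) := fun i => congrFun pb.coe_basis i
  let x : AdjoinRoot h ⊗[E] Δ := ∑ i, b i ⊗ₜ[E] c i
  let u₀ : LinearMap.ker (aeval T h) := ⟨u, hu⟩
  have hpow : ∀ i : ℕ, ((rootAct T h (AdjoinRoot.root h ^ i) u₀ : LinearMap.ker (aeval T h)) : V)
      = (T ^ i) u := by
    intro i
    have h1 : AdjoinRoot.root h ^ i = AdjoinRoot.mk h (X ^ i) := by
      rw [map_pow, AdjoinRoot.mk_X]
    rw [h1, rootAct_mk, aeval_restrictOp_coe]
    simp [u₀]
  have hact : tensorAct T h x u₀ = 0 := by
    ext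
    simp only [x, map_sum, LinearMap.sum_apply, tensorAct_tmul, Submodule.coe_sum,
      Submodule.coe_smul, hb, hpow, ZeroMemClass.coe_zero]
    exact hc
  by_cases hx : x = 0
  · have := coord_sum_tmul (Δ := Δ) b c j
    rw [← this]
    change coord b j x = 0
    rw [hx, map_zero]
  · exfalso
    obtain ⟨w', hw'⟩ := hl x hx
    have h2 : tensorAct T h (w' * x) u₀ = u₀ := by
      rw [hw', map_one]
      rfl
    rw [map_mul, Module.End.mul_apply, hact, map_zero] at h2
    apply hu0
    have := congrArg (Subtype.val) h2
    exact this.symm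

/-- Some irreducible factor of a polynomial vanishing somewhere has nontrivial kernel. -/
theorem exists_factor (T : Module.End Δ V) (p : E[X]) (hp : p ≠ 0)
    (hninj : ¬ Function.Injective (aeval T p)) :
    ∃ h : E[X], h.Monic ∧ Irreducible h ∧ h ∣ p ∧ ¬ Function.Injective (aeval T h) := by
  revert hp hninj
  refine WfDvdMonoid.induction_on_irreducible (motive := fun p : E[X] => p ≠ 0 →
    ¬ Function.Injective (aeval T p) → ∃ h : E[X], h.Monic ∧ Irreducible h ∧ h ∣ p ∧
      ¬ Function.Injective (aeval T h)) p ?_ ?_ ?_
  · intro h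
    exact absurd rfl h
  · intro u hu _ hni
    exfalso
    apply hni
    have h1 : IsUnit (aeval T u) := hu.map (aeval T)
    obtain ⟨v, hv⟩ := h1
    rw [← hv]
    intro a b hab
    have := congrArg (((↑(v⁻¹) : Module.End Δ V) : V → V)) hab
    simpa [← Module.End.mul_apply] using this
  · intro a i ha hi ih _ hni
    have hmul : aeval T (i * a) = aeval T i * aeval T a := map_mul _ _ _
    by_cases hA : Function.Injective (aeval T a)
    · -- `i` is the factor
      have hI : ¬ Function.Injective (aeval T i) := by
        intro hI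
        apply hni
        rw [hmul]
        exact hI.comp hA
      have hlc : i.leadingCoeff ≠ 0 := Polynomial.leadingCoeff_ne_zero.mpr hi.ne_zero
      refine ⟨i * C i.leadingCoeff⁻¹, Polynomial.monic_mul_leadingCoeff_inv hi.ne_zero, ?_, ?_, ?_⟩
      · exact (Polynomial.irreducible_mul_leadingCoeff_inv).mpr hi
      · refine Dvd.dvd.trans ?_ (Dvd.intro a rfl)
        exact ⟨C i.leadingCoeff, by
          rw [mul_assoc, ← C_mul, inv_mul_cancel₀ hlc, C_1, mul_one]⟩
      · intro h2
        apply hI
        have h3 : aeval T i = aeval T (i * C i.leadingCoeff⁻¹) * aeval T (C i.leadingCoeff) := by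
          rw [← map_mul, mul_assoc, ← C_mul, inv_mul_cancel₀ hlc, C_1, mul_one]
        rw [h3, aeval_C]
        intro x y hxy
        have h4 := h2 hxy
        simp only [Module.algebraMap_end_apply] at h4
        have h5 := smul_right_injective V hlc h4
        exact h5
    · obtain ⟨h, h1, h2, h3, h4⟩ := ih ha hA
      exact ⟨h, h1, h2, h3.trans (Dvd.intro_left i rfl), h4⟩

end C

section Main

variable {E Δ : Type u} [Field E] [DivisionRing Δ] [Algebra E Δ]

lemma aeval_mapQ {V : Type u} [AddCommGroup V] [Module Δ V] [Module E V] [IsScalarTower E Δ V]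
    (S : Submodule Δ V) (T : Module.End Δ V) (hS : S ≤ S.comap T) (g : E[X]) (v : V) :
    aeval (S.mapQ S T hS : Module.End Δ (V ⧸ S)) g (S.mkQ v) = S.mkQ (aeval T g v) := by
  induction g using Polynomial.induction_on' generalizing v with
  | add p q hp hq =>
    simp only [map_add, LinearMap.add_apply, hp, hq]
  | monomial n a =>
    have h3 : ∀ (k : ℕ) (v : V), ((S.mapQ S T hS : Module.End Δ (V ⧸ S)) ^ k) (S.mkQ v)
        = S.mkQ ((T ^ k) v) := by
      intro k
      induction k with
      | zero => intro w; rfl
      | succ k ih =>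
        intro w
        rw [pow_succ, pow_succ, Module.End.mul_apply, Module.End.mul_apply, ← ih]
        rfl
    rw [Polynomial.aeval_monomial, Polynomial.aeval_monomial, ← Algebra.smul_def, ← Algebra.smul_def,
      LinearMap.smul_apply, LinearMap.smul_apply, h3]
    rw [← algebraMap_smul Δ a, ← algebraMap_smul Δ a, map_smul]

/-- The dimension of a module over a division algebra carrying an operator killed by `p` is
divisible by `q`, if all irreducible factors of `p` give extensions of degree divisible by
`q`, which stay division algebras after base change. -/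
theorem lemmaC (q : ℕ) (p : E[X]) (hp : p ≠ 0)
    (H : ∀ h : E[X], h.Monic → Irreducible h → h ∣ p → q ∣ h.natDegree ∧
      ∀ w : AdjoinRoot h ⊗[E] Δ, w ≠ 0 → ∃ w', w' * w = 1) :
    ∀ (d : ℕ) (V : Type u) [AddCommGroup V] [Module Δ V] [Module E V] [IsScalarTower E Δ V]
      [Module.Finite Δ V] (T : Module.End Δ V), Module.finrank Δ V = d → aeval T p = 0 → q ∣ d := by
  intro d
  induction d using Nat.strong_induction_on with
  | h d ih =>
    intro V _ _ _ _ _ T hd hT
    by_cases hd0 : d = 0
    · rw [hd0]
      exact dvd_zero q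
    haveI : Nontrivial V := Module.nontrivial_of_finrank_pos (R := Δ) (by omega)
    have hninj : ¬ Function.Injective (aeval T p) := by
      rw [hT]
      obtain ⟨v, hv⟩ := exists_ne (0 : V)
      intro hinj
      exact hv (hinj (by simp))
    obtain ⟨h, hm, hi, hdvd, hni⟩ := exists_factor T p hp hninj
    obtain ⟨u, hu, hu0⟩ : ∃ u : V, aeval T h u = 0 ∧ u ≠ 0 := by
      rw [injective_iff_map_eq_zero] at hni
      push_neg at hni
      exact hni
    haveI : Fact (Irreducible h) := ⟨hi⟩
    obtain ⟨hq, hl⟩ := H h hm hi hdvd
    have hind := indep_powers h hl T u hu0 hu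
    let v : Fin h.natDegree → V := fun i => (T ^ (i : ℕ)) u
    let S : Submodule Δ V := Submodule.span Δ (Set.range v)
    have hS : Module.finrank Δ S = h.natDegree := by
      have := finrank_span_eq_card hind
      simpa using this
    have hmem : ∀ k, k < h.natDegree → (T ^ k) u ∈ S := by
      intro k hk
      exact Submodule.subset_span ⟨⟨k, hk⟩, rfl⟩
    have hinv : S ≤ S.comap T := by
      rw [Submodule.span_le]
      rintro _ ⟨i, rfl⟩
      change T ((T ^ (i : ℕ)) u) ∈ S
      have h1 : T ((T ^ (i : ℕ)) u) = (T ^ ((i : ℕ) + 1)) u := by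
        rw [pow_succ', Module.End.mul_apply]
      rw [h1]
      by_cases hi2 : (i : ℕ) + 1 < h.natDegree
      · exact hmem _ hi2
      · have hn : (i : ℕ) + 1 = h.natDegree := by
          have := i.2
          omega
        rw [hn]
        have h2 := hu
        rw [Polynomial.aeval_eq_sum_range, Finset.sum_range_succ, hm.coeff_natDegree, one_smul,
          LinearMap.add_apply, LinearMap.sum_apply] at h2
        rw [eq_neg_of_add_eq_zero_right h2]
        refine Submodule.neg_mem _ (Submodule.sum_mem _ fun k hk => ?_)
        rw [LinearMap.smul_apply]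
        exact Submodule.smul_of_tower_mem _ _ (hmem k (Finset.mem_range.mp hk))
    let T' : Module.End Δ (V ⧸ S) := S.mapQ S T hinv
    have hT' : aeval T' p = 0 := by
      ext w
      rw [LinearMap.comp_apply]
      change aeval T' p (S.mkQ w) = 0
      rw [aeval_mapQ, hT]
      simp
    have hrank := S.finrank_quotient_add_finrank
    rw [hS, hd] at hrank
    have hdeg : 0 < h.natDegree := hi.natDegree_pos
    have hq2 := ih (Module.finrank Δ (V ⧸ S)) (by omega) (V ⧸ S) T' rfl hT'
    rw [← hrank]
    exact dvd_add hq2 hq

end Main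

end Vale.Agent.P199
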