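import Vale.Agent.P199.GaloisEmbed

/-!
# Base change along Galois extensions of prime power degree
-/

namespace Vale.Agent.P199

open scoped TensorProduct BigOperators Matrix
open TensorProduct Polynomial

universe u

section LemmaB

variable {E E' Δ : Type u} [Field E] [Uncountable E] [Field E'] [Algebra E E']
  [FiniteDimensional E E'] [DivisionRing Δ] [Algebra E Δ] [Algebra.IsCentral E Δ]
  [Algebra.IsAlgebraic E Δ]

attribute [local instance] bcModule

/-- Dimension count for a base change: `n ∣ [E' : E]`, and the quotient is the dimension of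
the column vectors. -/
theorem wedderburn_dim {n : ℕ} [NeZero n] {Δ₁ : Type u} [DivisionRing Δ₁] [Algebra E' Δ₁]
    (e : E' ⊗[E] Δ ≃ₐ[E'] Matrix (Fin n) (Fin n) Δ₁) :
    letI := colModule (e.toRingEquiv.toRingHom.comp (incR E E' Δ).toRingHom)
    Module.finrank E E' = n * Module.finrank Δ (Fin n → Δ₁) := by
  haveI := bc_finite (E := E) (E' := E') (Δ := Δ)
  have h := (dim_formula (e.toRingEquiv.toRingHom.comp (incR E E' Δ).toRingHom) e.toRingEquiv
    (by
      intro δ x
      rw [bc_smul_def, map_mul]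
      rfl)).2
  rwa [bc_finrank] at h

/-- If the index is full, `E'` embeds in `Δ`. -/
theorem embed_of_full {n : ℕ} [NeZero n] {Δ₁ : Type u} [DivisionRing Δ₁] [Algebra E' Δ₁]
    (e : E' ⊗[E] Δ ≃ₐ[E'] Matrix (Fin n) (Fin n) Δ₁) (hn : n = Module.finrank E E') :
    Nonempty (E' →ₐ[E] Δ) := by
  have h := wedderburn_dim e
  let φ := e.toRingEquiv.toRingHom.comp (incR E E' Δ).toRingHom
  letI := colModule φ
  have hd : Module.finrank Δ (Fin n → Δ₁) = 1 := by
    have hn0 : n ≠ 0 := NeZero.ne n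
    rw [← hn] at h
    have : n * Module.finrank Δ (Fin n → Δ₁) = n * 1 := by
      rw [mul_one]
      exact h.symm
    exact Nat.eq_of_mul_eq_mul_left (Nat.pos_of_ne_zero hn0) this
  let ψ : E' → (Fin n → Δ₁) → (Fin n → Δ₁) := fun a v => e (a ⊗ₜ[E] (1 : Δ)) *ᵥ v
  refine embed_of_finrank_one hd ψ ?_ ?_ ?_ ?_
  · intro a b v
    simp only [ψ, TensorProduct.add_tmul, map_add, Matrix.add_mulVec]
  · intro a b v
    simp only [ψ, Matrix.mulVec_mulVec, ← map_mul, Algebra.TensorProduct.tmul_mul_tmul, mul_one]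
  · intro a δ v
    change e (a ⊗ₜ[E] (1 : Δ)) *ᵥ (φ δ *ᵥ v) = φ δ *ᵥ (e (a ⊗ₜ[E] (1 : Δ)) *ᵥ v)
    simp only [Matrix.mulVec_mulVec]
    congr 1
    change e _ * e (incR E E' Δ δ) = e (incR E E' Δ δ) * e _
    rw [← map_mul, ← map_mul]
    simp [incR]
  · intro c v
    change e (algebraMap E E' c ⊗ₜ[E] (1 : Δ)) *ᵥ v = e (incR E E' Δ (algebraMap E Δ c)) *ᵥ v
    congr 2
    simp only [incR, Algebra.TensorProduct.includeRight_apply]
    rw [Algebra.algebraMap_eq_smul_one, Algebra.algebraMap_eq_smul_one, TensorProduct.tmul_smul,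
      TensorProduct.smul_tmul']

/-- Base change along a Galois extension of prime degree keeps a division algebra. -/
theorem lemmaB [IsGalois E E'] (hB : BrauerTrivial E) (hq : (Module.finrank E E').Prime) :
    ∃ (Δ₁ : Type u) (_ : DivisionRing Δ₁) (_ : Algebra E' Δ₁),
      Algebra.IsCentral E' Δ₁ ∧ Algebra.IsAlgebraic E' Δ₁ ∧ Nonempty (E' ⊗[E] Δ ≃ₐ[E'] Δ₁) := by
  obtain ⟨n, hn, Δ₁, hΔ₁, halg, hc, ha, ⟨e⟩⟩ := wedderburn_bc E E' Δ
  refine ⟨Δ₁, hΔ₁, halg, hc, ha, ?_⟩
  have h := wedderburn_dim e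
  have hdvd : n ∣ Module.finrank E E' := ⟨_, h⟩
  rcases (Nat.dvd_prime hq).mp hdvd with h1 | h1
  · subst h1
    have hbij : Function.Bijective
        (Matrix.scalarAlgHom (Fin 1) E' : Δ₁ →ₐ[E'] Matrix (Fin 1) (Fin 1) Δ₁) := by
      constructor
      · intro a b hab
        have h2 := congrFun (congrFun hab 0) 0
        simpa [Matrix.scalar_apply] using h2
      · intro A
        refine ⟨A 0 0, ?_⟩
        ext i j
        have hi : i = 0 := Subsingleton.elim _ _
        have hj : j = 0 := Subsingleton.elim _ _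
        subst hi hj
        simp [Matrix.scalar_apply]
    exact ⟨e.trans (AlgEquiv.ofBijective _ hbij).symm⟩
  · exfalso
    obtain ⟨ι⟩ := embed_of_full e h1
    exact no_galois_subfield hB hq.one_lt ι

end LemmaB

section Cancel

/-- The natural isomorphism `A ⊗[S] (S ⊗[R] B) ≃ A ⊗[R] B`, for noncommutative `B`. -/
noncomputable def cancelBC (R S A B : Type*) [CommRing R] [CommRing S] [Algebra R S] [CommRing A]
    [Algebra R A] [Algebra S A] [IsScalarTower R S A] [Ring B] [Algebra R B] :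
    A ⊗[S] (S ⊗[R] B) ≃ₐ[A] A ⊗[R] B :=
  AlgEquiv.symm <| AlgEquiv.ofLinearEquiv
    (TensorProduct.AlgebraTensorModule.cancelBaseChange R S A A B).symm
    (by simp [Algebra.TensorProduct.one_def]) <|
      LinearMap.map_mul_of_map_mul_tmul (fun _ _ _ _ ↦ by simp)

/-- Transfer of the division property. -/
theorem transfer_units {E E₁ L Δ Δ₁ : Type u} [Field E] [Field E₁] [Field L] [Algebra E E₁]
    [Algebra E₁ L] [Algebra E L] [IsScalarTower E E₁ L] [DivisionRing Δ] [Algebra E Δ]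
    [DivisionRing Δ₁] [Algebra E₁ Δ₁] (e : E₁ ⊗[E] Δ ≃ₐ[E₁] Δ₁)
    (key : ∀ w : L ⊗[E₁] Δ₁, IsUnit w ∨ w = 0) : ∀ w : L ⊗[E] Δ, IsUnit w ∨ w = 0 := by
  intro w
  let f : L ⊗[E₁] Δ₁ ≃ₐ[E₁] L ⊗[E₁] (E₁ ⊗[E] Δ) :=
    Algebra.TensorProduct.congr AlgEquiv.refl e.symm
  let g : L ⊗[E₁] (E₁ ⊗[E] Δ) ≃ₐ[L] L ⊗[E] Δ := cancelBC E E₁ L Δ
  let w' := f.symm (g.symm w)
  have h3 : w = g (f w') := by simp [w']
  rcases key w' with hu | h0
  · left
    rw [h3]
    exact (hu.map f).map g
  · right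
    rw [h3, h0, map_zero, map_zero]

end Cancel

section TowerThm

attribute [local instance] bcModule

/-- For a Galois extension of prime power degree, the base change stays a division ring. -/
theorem tower (q : ℕ) (hq : q.Prime) : ∀ k : ℕ, ∀ (E L Δ : Type u) [Field E] [Uncountable E]
    [Field L] [Algebra E L] [FiniteDimensional E L] [IsGalois E L] [DivisionRing Δ] [Algebra E Δ]
    [Algebra.IsCentral E Δ] [Algebra.IsAlgebraic E Δ], BrauerTrivial E →
    Module.finrank E L = q ^ k → ∀ w : L ⊗[E] Δ, IsUnit w ∨ w = 0 := by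
  intro k
  induction k with
  | zero =>
    intro E L Δ _ _ _ _ _ _ _ _ _ _ hB hdeg w
    have h1 : Module.finrank Δ (L ⊗[E] Δ) = 1 := by
      rw [bc_finrank, hdeg, pow_zero]
    haveI : Nontrivial (L ⊗[E] Δ) := by
      have hinj : Function.Injective (Algebra.TensorProduct.includeRight : Δ →ₐ[E] L ⊗[E] Δ) :=
        Algebra.TensorProduct.includeRight_injective (FaithfulSMul.algebraMap_injective E L)
      exact hinj.nontrivial
    obtain ⟨δ, hδ⟩ := (finrank_eq_one_iff_of_nonzero' (1 : L ⊗[E] Δ) one_ne_zero).mp h1 w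
    rw [bc_smul_def, mul_one] at hδ
    by_cases hδ0 : δ = 0
    · right
      rw [← hδ, hδ0, map_zero]
    · left
      rw [← hδ]
      exact (IsUnit.mk0 δ hδ0).map (incR E L Δ)
  | succ k ih =>
    intro E L Δ _ _ _ _ _ _ _ _ _ _ hB hdeg w
    haveI : Fact q.Prime := ⟨hq⟩
    let G := L ≃ₐ[E] L
    have hcard : Nat.card G = q ^ (k + 1) := by
      rw [IsGalois.card_aut_eq_finrank, hdeg]
    obtain ⟨M, hM⟩ := Sylow.exists_subgroup_card_pow_prime (G := G) q
      (n := k) (by rw [hcard]; exact pow_dvd_pow q (Nat.le_succ k))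
    have hindex : M.index = q := by
      have h1 := M.card_mul_index
      rw [hM, hcard, pow_succ] at h1
      exact Nat.eq_of_mul_eq_mul_left (pow_pos hq.pos k) h1
    haveI hnormal : M.Normal := by
      apply Subgroup.normal_of_index_eq_minFac_card
      rw [hindex, hcard, hq.pow_minFac (Nat.succ_ne_zero k)]
    let E₁ := IntermediateField.fixedField M
    haveI : IsGalois E E₁ := IsGalois.of_fixedField_normal_subgroup M
    have h1 : Module.finrank E₁ L = q ^ k := by
      rw [IntermediateField.finrank_fixedField_eq_card, hM]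
    have h2 : Module.finrank E E₁ = q := by
      have := Module.finrank_mul_finrank E E₁ L
      rw [h1, hdeg, pow_succ'] at this
      exact Nat.eq_of_mul_eq_mul_right (pow_pos hq.pos k) (by rw [this, mul_comm])
    haveI : Uncountable E₁ :=
      (FaithfulSMul.algebraMap_injective E E₁).uncountable
    obtain ⟨Δ₁, _, _, hc, ha, ⟨e⟩⟩ := lemmaB (E := E) (E' := E₁) (Δ := Δ) hB (by rw [h2]; exact hq)
    have hB₁ : BrauerTrivial E₁ := hB.extend
    have key := ih E₁ L Δ₁ hB₁ h1
    exact transfer_units e key w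

end TowerThm

end Vale.Agent.P199
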