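import Vale.Agent.P199.Amitsur

/-!
# Wedderburn decomposition of a base change `E' ⊗[E] Δ`
-/

namespace Vale.Agent.P199

open scoped TensorProduct BigOperators Matrix
open TensorProduct Polynomial

universe u

section Defs

/-- A field all of whose finite extensions (in the same universe) have trivial Brauer group:
every finite-dimensional central division algebra over such an extension is commutative. -/
def BrauerTrivial (F : Type u) [Field F] : Prop :=
  ∀ (Z : Type u) [Field Z] [Algebra F Z] [Module.Finite F Z]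
    (A : Type u) [DivisionRing A] [Algebra Z A] [Algebra.IsCentral Z A] [Module.Finite Z A],
    ∀ a b : A, a * b = b * a

theorem BrauerTrivial.extend {E E' : Type u} [Field E] [Field E'] [Algebra E E']
    [Module.Finite E E'] (h : BrauerTrivial E) : BrauerTrivial E' := by
  intro Z _ _ _ A _ _ _ _
  letI : Algebra E Z := ((algebraMap E' Z).comp (algebraMap E E')).toAlgebra
  haveI : IsScalarTower E E' Z := IsScalarTower.of_algebraMap_eq' rfl
  haveI : Module.Finite E Z := Module.Finite.trans E' Z
  exact h Z A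

end Defs

section Col

variable {Δ Δ₁ : Type u} [DivisionRing Δ] [DivisionRing Δ₁] {n : ℕ}

/-- The module of column vectors, over a ring mapping to matrices. -/
@[reducible] def colModule (φ : Δ →+* Matrix (Fin n) (Fin n) Δ₁) : Module Δ (Fin n → Δ₁) where
  smul δ v := φ δ *ᵥ v
  one_smul v := by
    change φ 1 *ᵥ v = v
    simp
  mul_smul a b v := by
    change φ (a * b) *ᵥ v = φ a *ᵥ (φ b *ᵥ v)
    simp [Matrix.mulVec_mulVec]
  smul_zero a := by
    change φ a *ᵥ 0 = 0
    simp
  smul_add a v w := by
    change φ a *ᵥ (v + w) = φ a *ᵥ v + φ a *ᵥ w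
    simp [Matrix.mulVec_add]
  add_smul a b v := by
    change φ (a + b) *ᵥ v = φ a *ᵥ v + φ b *ᵥ v
    simp [Matrix.add_mulVec]
  zero_smul v := by
    change φ 0 *ᵥ v = 0
    simp

/-- Dimension count: for `B ≃ Mₙ(Δ₁)` compatibly with the `Δ`-actions, the dimension of `B` over
`Δ` is `n` times the dimension of the column vectors. -/
theorem dim_formula [NeZero n] (φ : Δ →+* Matrix (Fin n) (Fin n) Δ₁) {B : Type u} [Ring B]
    [Module Δ B] [Module.Finite Δ B] (e : B ≃+* Matrix (Fin n) (Fin n) Δ₁)
    (he : ∀ (δ : Δ) (x : B), e (δ • x) = φ δ * e x) :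
    letI := colModule φ
    Module.Finite Δ (Fin n → Δ₁) ∧ Module.finrank Δ B = n * Module.finrank Δ (Fin n → Δ₁) := by
  letI := colModule φ
  let g : B ≃ₗ[Δ] (Fin n → (Fin n → Δ₁)) :=
    { toFun := fun x j i => e x i j
      map_add' := by
        intro x y
        ext j i
        simp
      map_smul' := by
        intro δ x
        ext j i
        simp only [he, RingHom.id_apply, Pi.smul_apply]
        change (φ δ * e x) i j = (φ δ *ᵥ fun i => e x i j) i
        rw [Matrix.mul_apply]
        rfl
      invFun := fun c => e.symm (Matrix.of fun i j => c j i)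
      left_inv := by
        intro x
        simp only
        have : (Matrix.of fun i j => e x i j) = e x := rfl
        rw [this, e.symm_apply_apply]
      right_inv := by
        intro c
        simp }
  have hfin : Module.Finite Δ (Fin n → Δ₁) := by
    haveI : Module.Finite Δ (Fin n → (Fin n → Δ₁)) := Module.Finite.equiv g
    exact Module.Finite.of_surjective (LinearMap.proj (R := Δ) (φ := fun _ : Fin n => Fin n → Δ₁) 0)
      (fun v => ⟨fun _ => v, rfl⟩)
  refine ⟨hfin, ?_⟩
  rw [LinearEquiv.finrank_eq g, Module.finrank_pi_fintype]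
  simp

end Col

section Embed

variable {E E' Δ : Type u} [Field E] [Field E'] [Algebra E E'] [DivisionRing Δ] [Algebra E Δ]

/-- A `1`-dimensional module with a commuting action of a commutative extension `E'`
yields an embedding of `E'` in `Δ`. -/
theorem embed_of_finrank_one {V : Type u} [AddCommGroup V] [Module Δ V]
    (h1 : Module.finrank Δ V = 1) (ψ : E' → V → V)
    (hadd : ∀ a b v, ψ (a + b) v = ψ a v + ψ b v)
    (hmul : ∀ a b v, ψ (a * b) v = ψ a (ψ b v))
    (hcomm : ∀ a (δ : Δ) v, ψ a (δ • v) = δ • ψ a v)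
    (hE : ∀ (c : E) v, ψ (algebraMap E E' c) v = (algebraMap E Δ c) • v) :
    Nonempty (E' →ₐ[E] Δ) := by
  haveI : Nontrivial V := Module.nontrivial_of_finrank_pos (R := Δ) (by omega)
  obtain ⟨v₀, hv₀⟩ := exists_ne (0 : V)
  have hspan := (finrank_eq_one_iff_of_nonzero' v₀ hv₀).mp h1
  choose ι hι using fun a : E' => hspan (ψ a v₀)
  have hinj : ∀ x y : Δ, x • v₀ = y • v₀ → x = y := by
    intro x y hxy
    have h0 : (x - y) • v₀ = 0 := by rw [sub_smul, hxy, sub_self]
    rcases smul_eq_zero.mp h0 with h2 | h2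
    · exact sub_eq_zero.mp h2
    · exact absurd h2 hv₀
  have hmul' : ∀ a b, ι (a * b) = ι b * ι a := by
    intro a b
    apply hinj
    rw [hι, hmul, ← hι b, hcomm, ← hι a, smul_smul]
  have hcomm' : ∀ a b, ι (a * b) = ι a * ι b := by
    intro a b
    rw [mul_comm a b, hmul']
  refine ⟨{ toFun := ι
            map_one' := ?_
            map_mul' := hcomm'
            map_zero' := ?_
            map_add' := ?_
            commutes' := ?_ }⟩
  · apply hinj
    have := hE 1 v₀
    rw [map_one, map_one, one_smul] at this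
    rw [hι, this, one_smul]
  · apply hinj
    have := hE 0 v₀
    rw [map_zero, map_zero, zero_smul] at this
    rw [hι, this, zero_smul]
  · intro a b
    apply hinj
    rw [hι, hadd, add_smul, hι, hι]
  · intro c
    apply hinj
    rw [hι, hE]

end Embed

section Wedderburn

variable {E E' Δ : Type u} [Field E] [Uncountable E] [Field E'] [Algebra E E'] [Module.Finite E E']
  [DivisionRing Δ] [Algebra E Δ] [Algebra.IsCentral E Δ] [Algebra.IsAlgebraic E Δ]

variable (E E' Δ) in
/-- The base change of a good algebra is a matrix algebra over a good algebra. -/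
theorem wedderburn_bc :
    ∃ (n : ℕ) (_ : NeZero n) (Δ₁ : Type u) (_ : DivisionRing Δ₁) (_ : Algebra E' Δ₁),
      Algebra.IsCentral E' Δ₁ ∧ Algebra.IsAlgebraic E' Δ₁ ∧
      Nonempty (E' ⊗[E] Δ ≃ₐ[E'] Matrix (Fin n) (Fin n) Δ₁) := by
  haveI := isSimpleRing_bc E E' Δ
  haveI := isCentral_bc E E' Δ
  haveI := bc_artinian (E := E) (E' := E') (Δ := Δ)
  obtain ⟨n, hn, Δ₁, hΔ₁, halg, ⟨e⟩⟩ := IsSimpleRing.exists_algEquiv_matrix_divisionRing E' (E' ⊗[E] Δ)
  refine ⟨n, hn, Δ₁, hΔ₁, halg, ?_, ?_, ⟨e⟩⟩
  · -- central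
    haveI hc : Algebra.IsCentral E' (Matrix (Fin n) (Fin n) Δ₁) :=
      Algebra.IsCentral.of_algEquiv E' _ _ e
    constructor
    intro z hz
    rw [Subalgebra.mem_center_iff] at hz
    have h1 : Matrix.scalarAlgHom (Fin n) E' z ∈ Subalgebra.center E' (Matrix (Fin n) (Fin n) Δ₁) := by
      rw [Subalgebra.mem_center_iff]
      intro A
      ext i j
      simp [Matrix.mul_apply, Matrix.scalar_apply, Matrix.diagonal_apply, hz]
    obtain ⟨c, hc⟩ := (Algebra.IsCentral.mem_center_iff E').mp h1
    rw [Algebra.mem_bot]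
    refine ⟨c, ?_⟩
    have h2 := congrFun (congrFun hc 0) 0
    simpa [Matrix.scalar_apply, Matrix.algebraMap_eq_diagonal] using h2.symm
  · -- algebraic
    have hB : Algebra.IsAlgebraic E' (E' ⊗[E] Δ) := by
      constructor
      intro x
      obtain ⟨p, hp, hp0⟩ := amitsur (E := E) x
      refine ⟨p.map (algebraMap E E'), ?_, ?_⟩
      · exact (Polynomial.map_ne_zero_iff (algebraMap E E').injective).mpr hp
      · rw [Polynomial.aeval_map_algebraMap, hp0]
    haveI hM : Algebra.IsAlgebraic E' (Matrix (Fin n) (Fin n) Δ₁) := e.isAlgebraic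
    refine Algebra.IsAlgebraic.of_injective (Matrix.scalarAlgHom (Fin n) E') ?_
    intro a b hab
    have h2 := congrFun (congrFun hab 0) 0
    simpa [Matrix.scalar_apply] using h2

end Wedderburn

end Vale.Agent.P199
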